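import Crest.Agent.R246.F2.Defs

/-!
# Row 246, block F2: Gaussian densities as approximate identities.  Statements FROZEN (owner helper43).
Tools: `gk_pos`, `continuous_gk` (`R246/Fub.lean`), `B2.gk_le`, `B2.gk_low`, `B2.gk_tail`, `B2.gk_sq` (`R246/B2/Ker.lean`).
-/

set_option autoImplicit false
set_option linter.unusedSectionVars false

open MeasureTheory Metric Filter Topology Set Module
open scoped RealInnerProductSpace ENNReal ContDiff Real

noncomputable section

namespace Crest.Agent.R246.F2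

variable {E : Type} [NormedAddCommGroup E] [InnerProductSpace ℝ E] [FiniteDimensional ℝ E]
  [MeasurableSpace E] [BorelSpace E]

/-! ### part a -/

theorem gk_symm (d : ℕ) (p : E) (r : ℝ) (y : E) : gk d p r y = gk d y r p := by
  unfold gk
  rw [norm_sub_rev]

/-- `gk` is bounded below on `K` (`B2.gk_low`); Markov (`Integrable.measure_ge_lt_top`) -/
theorem meas_compact_lt_top {d : ℕ} {μ : Measure E} (h : Integrable (gk d 0 1) μ) {K : Set E}
    (hK : IsCompact K) : μ K < ⊤ := by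
  obtain ⟨M, hM⟩ := hK.isBounded.exists_norm_le
  obtain ⟨k, hk, h1⟩ := B2.gk_low (E := E) d M
  refine (measure_mono fun y hy => ?_).trans_lt (h.measure_ge_lt_top hk)
  simpa using h1 0 1 y one_pos (by simpa using hM y hy)

/-- a bounded function which is small near `x` has small Gaussian averages -/
theorem gaussa_small {d : ℕ} {μ : Measure E} {x : E} {C M : ℝ}
    (hi : ∀ r, 0 < r → Integrable (gk d x r) μ) (hC : ∀ r, 0 < r → th d μ x r ≤ C) {c : ℝ} (hc : 0 < c)
    {ψ : ℝ → E → ℝ} (hM : ∀ r y, 0 < r → |ψ r y| ≤ M)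
    (h0 : ∀ ε, 0 < ε → ∃ δ, 0 < δ ∧ ∀ᵐ y ∂μ, ‖y - x‖ < δ → ∀ r, 0 < r → |ψ r y| ≤ ε) :
    Tendsto (fun r => ∫ y, ψ r y * gk d x (c * r) y ∂μ) (𝓝[>] 0) (𝓝 0) := by
  have hM0 : 0 ≤ M := (abs_nonneg _).trans (hM 1 x one_pos)
  have hC0 : 0 ≤ C := (integral_nonneg fun y => (gk_pos d x one_pos y).le).trans (hC 1 one_pos)
  rw [Metric.tendsto_nhds]
  intro ε hε
  set η := ε / ((1 + M) * C + 1) with hη
  have hη0 : 0 < η := by positivity
  obtain ⟨δ, hδ, h1⟩ := h0 η hη0
  obtain ⟨L, hL, h2⟩ := B2.gk_tail (E := E) d hη0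
  filter_upwards [Ioo_mem_nhdsGT (show (0 : ℝ) < δ / (L * c) by positivity)] with r hr
  have hr0 := hr.1
  have hcr : 0 < c * r := by positivity
  have h3 : L * (c * r) ≤ δ := by
    have := (lt_div_iff₀ (by positivity)).1 hr.2
    linarith
  have hb := ((hi _ hcr).const_mul η).add ((hi (2 * (c * r)) (by positivity)).const_mul (M * η))
  have h4 : ‖∫ y, ψ r y * gk d x (c * r) y ∂μ‖ ≤
      ∫ y, (η * gk d x (c * r) y + M * η * gk d x (2 * (c * r)) y) ∂μ := by
    refine norm_integral_le_of_norm_le hb (h1.mono fun y hy => ?_)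
    have g1 := (gk_pos d x hcr y).le
    have g2 := (gk_pos d x (show 0 < 2 * (c * r) by positivity) y).le
    rw [norm_mul, Real.norm_of_nonneg g1, Real.norm_eq_abs]
    by_cases h5 : ‖y - x‖ < δ
    · exact le_add_of_le_of_nonneg (mul_le_mul_of_nonneg_right (hy h5 r hr0) g1) (by positivity)
    · refine le_add_of_nonneg_of_le (by positivity) ?_
      rw [mul_assoc]
      exact mul_le_mul (hM r y hr0) (h2 x _ y hcr (h3.trans (not_lt.1 h5))) g1 hM0
  rw [integral_add ((hi _ hcr).const_mul η) ((hi (2 * (c * r)) (by positivity)).const_mul (M * η)),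
    integral_const_mul, integral_const_mul] at h4
  have h5 : η * th d μ x (c * r) ≤ η * C := mul_le_mul_of_nonneg_left (hC _ hcr) hη0.le
  have h6 : M * η * th d μ x (2 * (c * r)) ≤ M * η * C :=
    mul_le_mul_of_nonneg_left (hC _ (by positivity)) (by positivity)
  have h7 : η * ((1 + M) * C + 1) = ε := div_mul_cancel₀ _ (by positivity)
  rw [dist_zero_right]
  unfold th at h5 h6
  nlinarith

/-- `|∫ φ gk - φ x th| ≤ ε th(x, r) + 2 M η th(x, 2r)` for small `r` (`B2.gk_tail`) -/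
theorem approx_id {d : ℕ} {μ : Measure E} {x : E} {C M : ℝ}
    (hi : ∀ r, 0 < r → Integrable (gk d x r) μ) (hC : ∀ r, 0 < r → th d μ x r ≤ C)
    (h1 : Tendsto (th d μ x) (𝓝[>] 0) (𝓝 1)) {φ : E → ℝ} (hφ : Measurable φ) (hM : ∀ y, |φ y| ≤ M)
    (hc : ContinuousAt φ x) :
    Tendsto (fun r => ∫ y, φ y * gk d x r y ∂μ) (𝓝[>] 0) (𝓝 (φ x)) := by
  have h2 := gaussa_small (M := M + M) hi hC one_pos (ψ := fun _ y => φ y - φ x)
    (fun _ y _ => (abs_sub _ _).trans (add_le_add (hM y) (hM x))) fun ε hε => by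
      obtain ⟨δ, hδ, h3⟩ := Metric.continuousAt_iff.1 hc ε hε
      exact ⟨δ, hδ, ae_of_all _ fun y hy _ _ => (h3 (by rwa [dist_eq_norm])).le⟩
  have h3 := h2.add (h1.const_mul (φ x))
  rw [zero_add, mul_one] at h3
  refine h3.congr' (eventually_mem_nhdsWithin.mono fun r hr => ?_)
  have h4 : Integrable (fun y => φ y * gk d x r y) μ :=
    (hi r hr).bdd_mul hφ.aestronglyMeasurable (ae_of_all _ hM)
  simp only [one_mul, sub_mul]
  rw [integral_sub h4 ((hi r hr).const_mul _), integral_const_mul, th, sub_add_cancel]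

/-- `approx_id` for the indicator function of `U` -/
theorem th_restrict {d : ℕ} {μ : Measure E} {x : E} {C : ℝ}
    (hi : ∀ r, 0 < r → Integrable (gk d x r) μ) (hC : ∀ r, 0 < r → th d μ x r ≤ C)
    (h1 : Tendsto (th d μ x) (𝓝[>] 0) (𝓝 1)) {U : Set E} (hU : IsOpen U) (hx : x ∈ U) :
    Tendsto (th d (μ.restrict U) x) (𝓝[>] 0) (𝓝 1) := by
  have h2 := approx_id (M := 1) hi hC h1 (φ := U.indicator fun _ => 1)
    (measurable_const.indicator hU.measurableSet) (fun y => by by_cases hy : y ∈ U <;> simp [hy])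
    ((continuousAt_const (y := (1 : ℝ))).congr (mem_of_superset (hU.mem_nhds hx) fun y hy => by simp [hy]))
  rw [indicator_of_mem hx] at h2
  refine h2.congr fun r => ?_
  rw [th, ← integral_indicator hU.measurableSet]
  refine integral_congr_ae (ae_of_all _ fun y => ?_)
  by_cases hy : y ∈ U <;> simp [hy]

/-- `(√(2π) r)⁻¹ ^ d * μ {x} ≤ th d μ x r ≤ C` and `r → 0` -/
theorem meas_singleton {d : ℕ} (hd : 1 ≤ d) {μ : Measure E} {x : E} {C : ℝ}
    (hi : ∀ r, 0 < r → Integrable (gk d x r) μ) (hC : ∀ r, 0 < r → th d μ x r ≤ C) : μ {x} = 0 := by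
  have hpi := Real.pi_pos
  have hfin : μ {x} ≠ ⊤ := by
    refine ((measure_mono ?_).trans_lt ((hi 1 one_pos).measure_ge_lt_top (gk_pos d x one_pos x))).ne
    rintro y rfl
    exact le_refl (gk d y 1 y)
  have h1 : ∀ r, 0 < r → μ.real {x} ≤ (√(2 * π) * r) ^ d * C := fun r hr => by
    have h2 := (setIntegral_le_integral (s := {x}) (hi r hr)
      (ae_of_all _ fun y => (gk_pos d x hr y).le)).trans (hC r hr)
    rw [integral_singleton, smul_eq_mul, gk, sub_self, norm_zero] at h2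
    simp only [ne_eq, OfNat.ofNat_ne_zero, not_false_eq_true, zero_pow, neg_zero, zero_div, Real.exp_zero,
      mul_one, inv_pow] at h2
    rwa [← div_eq_mul_inv, div_le_iff₀' (by positivity)] at h2
  have h2 : Tendsto (fun r : ℝ => (√(2 * π) * r) ^ d * C) (𝓝[>] 0) (𝓝 0) := by
    have h3 : Continuous fun r : ℝ => (√(2 * π) * r) ^ d * C := by fun_prop
    have h4 := h3.tendsto 0
    rw [mul_zero, zero_pow (by omega), zero_mul] at h4
    exact h4.mono_left nhdsWithin_le_nhds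
  have h3 : μ.real {x} ≤ 0 := ge_of_tendsto h2 (eventually_mem_nhdsWithin.mono h1)
  exact (measureReal_eq_zero_iff hfin).1 (le_antisymm h3 measureReal_nonneg)

/-! ### part b -/

/-- Two finite measures on `S` with Gaussian density one everywhere on `S` agree.
`ext_of_forall_integral_eq_of_IsFiniteMeasure`; for bounded continuous `φ`, `∬ φ y * gk d x r y ∂μ(y) ∂ν(x)` tends to
`∫ φ ∂ν` (`approx_id`, `tendsto_integral_filter_of_dominated_convergence`) and, by `integral_integral_swap` and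
`gk_symm`, equals `∫ φ y * th d ν y r ∂μ`, which tends to `∫ φ ∂μ`.  (`gk` is bounded: `B2.gk_le`.) -/
theorem ext_of_th {d : ℕ} {μ ν : Measure E} [IsFiniteMeasure μ] [IsFiniteMeasure ν] {S : Set E} {C : ℝ}
    (hμ : ∀ᵐ x ∂μ, x ∈ S) (hν : ∀ᵐ x ∂ν, x ∈ S)
    (bμ : ∀ x ∈ S, ∀ r, 0 < r → th d μ x r ≤ C) (bν : ∀ x ∈ S, ∀ r, 0 < r → th d ν x r ≤ C)
    (lμ : ∀ x ∈ S, Tendsto (th d μ x) (𝓝[>] 0) (𝓝 1))
    (lν : ∀ x ∈ S, Tendsto (th d ν x) (𝓝[>] 0) (𝓝 1)) : μ = ν := by
  refine ext_of_forall_integral_eq_of_IsFiniteMeasure fun φ => ?_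
  have hφ : ∀ y, |φ y| ≤ ‖φ‖ := fun y => φ.norm_coe_le_norm y
  have hint : ∀ x r, 0 < r → Integrable (gk d x r) μ := fun x r hr =>
    Integrable.of_bound (continuous_gk d x r).aestronglyMeasurable _
      (ae_of_all _ fun y => by rw [Real.norm_of_nonneg (gk_pos d x hr y).le]; exact B2.gk_le d x hr y)
  have hc : ∀ r, Continuous (Function.uncurry fun x y : E => φ y * gk d x r y) := fun r => by
    unfold gk Function.uncurry
    fun_prop
  have hc' : ∀ r, Continuous (Function.uncurry fun x y : E => gk d x r y) := fun r => by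
    unfold gk Function.uncurry
    fun_prop
  have h1 : Tendsto (fun r => ∫ x, ∫ y, φ y * gk d x r y ∂μ ∂ν) (𝓝[>] 0) (𝓝 (∫ x, φ x ∂ν)) := by
    refine tendsto_integral_filter_of_dominated_convergence (fun _ => ‖φ‖ * C)
      (Eventually.of_forall fun r => (hc r).stronglyMeasurable.integral_prod_right.aestronglyMeasurable)
      (eventually_mem_nhdsWithin.mono fun r hr => hν.mono fun x hx => ?_) (integrable_const _)
      (hν.mono fun x hx => approx_id (hint x) (bμ x hx) (lμ x hx) φ.continuous.measurable hφ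
        φ.continuous.continuousAt)
    refine (norm_integral_le_of_norm_le ((hint x r hr).const_mul ‖φ‖) (ae_of_all _ fun y => ?_)).trans ?_
    · rw [norm_mul, Real.norm_of_nonneg (gk_pos d x hr y).le]
      exact mul_le_mul_of_nonneg_right (hφ y) (gk_pos d x hr y).le
    · rw [integral_const_mul]
      exact mul_le_mul_of_nonneg_left (bμ x hx r hr) (norm_nonneg _)
  have h2 : Tendsto (fun r => ∫ y, φ y * th d ν y r ∂μ) (𝓝[>] 0) (𝓝 (∫ y, φ y ∂μ)) := by
    refine tendsto_integral_filter_of_dominated_convergence (fun _ => ‖φ‖ * C)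
      (Eventually.of_forall fun r => φ.continuous.aestronglyMeasurable.mul
        (hc' r).stronglyMeasurable.integral_prod_right.aestronglyMeasurable)
      (eventually_mem_nhdsWithin.mono fun r hr => hμ.mono fun x hx => ?_) (integrable_const _)
      (hμ.mono fun x hx => by simpa using (lν x hx).const_mul (φ x))
    have h3 : 0 ≤ th d ν x r := integral_nonneg fun y => (gk_pos d x hr y).le
    rw [norm_mul, Real.norm_of_nonneg h3]
    exact mul_le_mul (hφ x) (bν x hx r hr) h3 (norm_nonneg _)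
  refine tendsto_nhds_unique h2 (h1.congr' (eventually_mem_nhdsWithin.mono fun r hr => ?_))
  have h3 : Integrable (Function.uncurry fun x y : E => φ y * gk d x r y) (ν.prod μ) :=
    Integrable.of_bound (hc r).aestronglyMeasurable (‖φ‖ * (√(2 * π) * r)⁻¹ ^ d) (ae_of_all _ fun z => by
      rw [Function.uncurry, norm_mul, Real.norm_of_nonneg (gk_pos d _ hr _).le]
      exact mul_le_mul (hφ _) (B2.gk_le d _ hr _) (gk_pos d _ hr _).le (norm_nonneg _))
  simp only
  rw [integral_integral_swap h3]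
  refine integral_congr_ae (ae_of_all _ fun y => ?_)
  simp only [th, integral_const_mul, gk_symm d y]

/-- a.e. `y` is in the support (`Measure.support_mem_ae`); pointwise, for small `r`, the integrand of `hx` is at most
`4 K ε² gk (4r)` if `‖y - q‖ < δ` and `4 · 16 K η gk (8r)`-like otherwise (`B2.gk_sq`, `B2.gk_tail`) -/
theorem hx_tendsto {d : ℕ} {μ : Measure E} {q e : E} {C : ℝ}
    (hi : ∀ r, 0 < r → Integrable (gk d q r) μ) (hC : ∀ r, 0 < r → th d μ q r ≤ C) (he : ‖e‖ = 1)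
    (ht : Tang μ.support q e) : Tendsto (fun r => hx d μ q r e) (𝓝[>] 0) (𝓝 0) := by
  obtain ⟨K, hK, h1⟩ := B2.gk_sq (E := E) d
  have key : ∀ (r : ℝ) (y : E) (ε : ℝ), 0 < r → |⟪e, y - q⟫| ≤ ε * ‖y - q‖ →
      |⟪e, y - q⟫ ^ 2 / r ^ 2 * gk d q (2 * r) y / gk d q (4 * r) y| ≤ ε ^ 2 * (4 * K) := by
    intro r y ε hr h
    have g1 := gk_pos d q (show 0 < 2 * r by positivity) y
    have g2 := gk_pos d q (show 0 < 4 * r by positivity) y
    have h2 := (h1 q (2 * r) y (by positivity)).1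
    rw [show 2 * (2 * r) = 4 * r by ring] at h2
    have h3 : ⟪e, y - q⟫ ^ 2 ≤ ε ^ 2 * ‖y - q‖ ^ 2 := by
      rw [← sq_abs, ← mul_pow]; gcongr
    rw [abs_of_nonneg (by positivity), div_le_iff₀ g2, div_mul_eq_mul_div, div_le_iff₀ (by positivity)]
    calc _ ≤ ε ^ 2 * ‖y - q‖ ^ 2 * gk d q (2 * r) y := by gcongr
      _ ≤ ε ^ 2 * (K * (2 * r) ^ 2 * gk d q (4 * r) y) := by rw [mul_assoc]; gcongr
      _ = _ := by ring
  have h2 := gaussa_small (M := 1 ^ 2 * (4 * K)) hi hC four_pos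
    (ψ := fun r y => ⟪e, y - q⟫ ^ 2 / r ^ 2 * gk d q (2 * r) y / gk d q (4 * r) y)
    (fun r y hr => key r y 1 hr (by simpa [he] using abs_real_inner_le_norm e (y - q))) fun ε hε => by
      obtain ⟨δ, hδ, h3⟩ := ht √(ε / (4 * K)) (by positivity)
      refine ⟨δ, hδ, mem_of_superset (Measure.support_mem_ae (μ := μ)) fun y hy hy' r hr => ?_⟩
      have h4 := key r y _ hr (h3 y hy hy')
      rwa [Real.sq_sqrt (by positivity), div_mul_cancel₀ _ (by positivity)] at h4
  refine h2.congr' (eventually_mem_nhdsWithin.mono fun r (hr : 0 < r) => ?_)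
  refine integral_congr_ae (ae_of_all _ fun y => ?_)
  exact div_mul_cancel₀ _ (gk_pos d q (show 0 < 4 * r by positivity) y).ne'

/-- `Quant` with `η < min 1 (2 - Θ)` -/
theorem dens_one {d : ℕ} {V : Measure (E × E)} {s : E → ℝ} {Θ : ℝ} (hV : Cls d V s Θ) (hΘ : Θ < 2)
    (hL : Lower d V.fst 1) {q e : E} (hq : q ∈ V.fst.support) (hq0 : q ≠ 0) (he : ‖e‖ = 1)
    (ht : Tang V.fst.support q e) :
    Tendsto (th d V.fst q) (𝓝[>] 0) (𝓝 1) ∧ ∀ᶠ r in 𝓝[>] (0 : ℝ), s (q + r • e) ≠ s (q - r • e) := by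
  have hx0 := hx_tendsto (hV.integ q) (hV.upper q) he ht
  have key : ∀ η, 0 < η → η < 1 → η < 2 - Θ → ∀ᶠ r in 𝓝[>] (0 : ℝ),
      |th d V.fst q r - 1| ≤ η ∧ s (q + r • e) ≠ s (q - r • e) := fun η h0 h1 h2 => by
    obtain ⟨δ, hδ, h3⟩ := hV.quant η h0
    filter_upwards [Ioo_mem_nhdsGT (mul_pos hδ (norm_pos_iff.2 hq0)), hx0.eventually (gt_mem_nhds hδ)]
      with r hr h4
    have h5 := hL q hq r hr.1
    have h6 := hV.upper q r hr.1
    rcases h3 q r e hr.1 hr.2.le he h4.le with h7 | h7 | h7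
    · linarith
    · linarith
    · exact h7
  have key' : ∀ ε, 0 < ε → ∀ᶠ r in 𝓝[>] (0 : ℝ),
      |th d V.fst q r - 1| < ε ∧ s (q + r • e) ≠ s (q - r • e) := fun ε hε => by
    have h1 : 0 < min ε (min 1 (2 - Θ)) := lt_min hε (lt_min one_pos (by linarith))
    have h2 := min_le_left ε (min 1 (2 - Θ))
    have h3 := (min_le_right ε (min 1 (2 - Θ))).trans (min_le_left _ _)
    have h4 := (min_le_right ε (min 1 (2 - Θ))).trans (min_le_right _ _)
    exact (key _ (half_pos h1) (by linarith) (by linarith)).mono fun r hr => ⟨by linarith [hr.1], hr.2⟩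
  exact ⟨Metric.tendsto_nhds.2 fun ε hε => (key' ε hε).mono fun r hr => hr.1,
    (key' 1 one_pos).mono fun r hr => hr.2⟩

/-- `0 = f y - f q = ⟪n, y - q⟫ + o(‖y - q‖)` on `S` -/
theorem tang_of_grad {S : Set E} {f : E → ℝ} {q n : E} (hf : HasGradientAt f n q) (hn : n ≠ 0)
    (hq : f q = 0) (h0 : ∀ᶠ y in 𝓝 q, y ∈ S → f y = 0) : Tang S q (‖n‖⁻¹ • n) := by
  intro ε hε
  have hn0 : 0 < ‖n‖ := norm_pos_iff.2 hn
  have h1 := (hasGradientAt_iff_isLittleO.1 hf).def (mul_pos hε hn0)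
  obtain ⟨δ, hδ, h2⟩ := Metric.eventually_nhds_iff.1 (h1.and h0)
  refine ⟨δ, hδ, fun y hy hy' => ?_⟩
  obtain ⟨h3, h4⟩ := h2 (show dist y q < δ by rwa [dist_eq_norm])
  rw [h4 hy, hq, sub_zero, zero_sub, norm_neg, Real.norm_eq_abs] at h3
  rw [inner_smul_left, conj_trivial, abs_mul, abs_of_pos (inv_pos.2 hn0), inv_mul_le_iff₀ hn0]
  linarith

end Crest.Agent.R246.F2
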