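import Crest.Agent.R246.F2.Graph
import Crest.Agent.R246.F2.Gauss

/-!
# Row 246, block F2: the area measure of a graph.  Statements FROZEN (owner helper43).
-/

set_option autoImplicit false
set_option linter.unusedSectionVars false

open MeasureTheory Metric Filter Topology Set Module
open scoped RealInnerProductSpace ENNReal ContDiff Real

noncomputable section

namespace Crest.Agent.R246.F2

variable {E : Type} [NormedAddCommGroup E] [InnerProductSpace ℝ E] [FiniteDimensional ℝ E]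
  [MeasurableSpace E] [BorelSpace E]

variable {S : Set E} {p e : E} {ρ : ℝ} {v : (ℝ ∙ e)ᗮ → ℝ} {g : (ℝ ∙ e)ᗮ → (ℝ ∙ e)ᗮ}

/-- `ContinuousLinearMap.normDet_sq`: `L* L = 1 + a ⊗ a` has determinant `1 + ‖a‖²` -/
theorem normDet_graph (he : ‖e‖ = 1) (a : (ℝ ∙ e)ᗮ) :
    LinearMap.normDet (((ℝ ∙ e)ᗮ.subtypeL + (innerSL ℝ a).smulRight e : (ℝ ∙ e)ᗮ →L[ℝ] E) : (ℝ ∙ e)ᗮ →ₗ[ℝ] E) =
      √(1 + ‖a‖ ^ 2) := by
  set L : (ℝ ∙ e)ᗮ →ₗ[ℝ] E :=
    (((ℝ ∙ e)ᗮ.subtypeL + (innerSL ℝ a).smulRight e : (ℝ ∙ e)ᗮ →L[ℝ] E) : (ℝ ∙ e)ᗮ →ₗ[ℝ] E) with hL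
  have h1 : L.adjoint ∘ₗ L = LinearMap.transvection (innerSL ℝ a : (ℝ ∙ e)ᗮ →ₗ[ℝ] ℝ) a := by
    refine LinearMap.ext fun x => ext_inner_left ℝ fun y => ?_
    rw [LinearMap.comp_apply, LinearMap.adjoint_inner_right, LinearMap.transvection.apply]
    have h2 : ∀ x, L x = (x : E) + ⟪a, x⟫ • e := fun x => rfl
    have h3 : ⟪(y : E), e⟫ = 0 := by rw [real_inner_comm, inner_orth]
    simp only [h2, inner_add_left, inner_add_right, inner_smul_left, inner_smul_right, inner_orth, h3,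
      real_inner_self_eq_norm_sq, he, conj_trivial, ContinuousLinearMap.coe_coe, innerSL_apply_apply,
      Submodule.coe_inner, real_inner_comm (y : E) (a : E)]
    ring
  have h2 := L.normDet_sq
  rw [h1, LinearMap.transvection.det] at h2
  simp only [ContinuousLinearMap.coe_coe, innerSL_apply_apply, real_inner_self_eq_norm_sq] at h2
  rw [← Real.sqrt_sq L.normDet_nonneg]
  exact congrArg _ h2

theorem area_hasFDerivAt (h : Gr S p e ρ v g) {x : (ℝ ∙ e)ᗮ} (hx : x ∈ ball 0 ρ) :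
    HasFDerivAt (GG p e v) ((ℝ ∙ e)ᗮ.subtypeL + (innerSL ℝ (g x)).smulRight e : (ℝ ∙ e)ᗮ →L[ℝ] E) x :=
  (((ℝ ∙ e)ᗮ.subtypeL.hasFDerivAt (x := x)).const_add p).add ((h.grad x hx).hasFDerivAt.smul_const e)

theorem area_contDiffOn (h : Gr S p e ρ v g) : ContDiffOn ℝ 1 (GG p e v) (ball 0 ρ) :=
  (contDiffOn_const.add (ℝ ∙ e)ᗮ.subtypeL.contDiff.contDiffOn).add (h.contDiffOn_v.smul contDiffOn_const)

theorem area_pr (x : (ℝ ∙ e)ᗮ) : pr p e (GG p e v x) = x := pr_line p x _

theorem area_W (h : Gr S p e ρ v g) {x : (ℝ ∙ e)ᗮ} (hx : x ∈ ball 0 ρ) : √(1 + ‖g x‖ ^ 2) ≤ 2 := by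
  have h1 := h.small x hx
  have h2 := norm_nonneg (g x)
  exact Real.sqrt_le_iff.2 ⟨by norm_num, by nlinarith⟩

theorem area_W_cont (h : Gr S p e ρ v g) : ContinuousOn (fun x => √(1 + ‖g x‖ ^ 2)) (ball 0 ρ) :=
  (continuousOn_const.add (h.cont.norm.pow 2)).sqrt

/-- `StArea` for `GG p e v` on `ball 0 ρ` -/
theorem Gr.lintegral_ar {d : ℕ} (hA : StArea E) (hE : finrank ℝ E = d + 1) (h : Gr S p e ρ v g)
    {φ : E → ℝ≥0∞} (hφ : Measurable φ) :
    ∫⁻ y in cyl p e ρ, φ y ∂ar d S =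
      ∫⁻ x in ball 0 ρ, φ (GG p e v x) * ENNReal.ofReal √(1 + ‖g x‖ ^ 2) := by
  have h1 := (hA (ℝ ∙ e)ᗮ (GG p e v) (ball 0 ρ) isOpen_ball (area_contDiffOn h)
    (fun x _ x' _ hx => by rw [← area_pr (p := p) (v := v) x, hx, area_pr]) (fun x hx => ?_) (ball 0 ρ)
    Subset.rfl measurableSet_ball).2 φ hφ
  · rw [finrank_orth' hE h.unit] at h1
    rw [ar, Measure.restrict_restrict (isOpen_cyl p e ρ).measurableSet, inter_comm, h.inter_eq, h1]
    refine setLIntegral_congr_fun measurableSet_ball fun x hx => ?_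
    simp only [(area_hasFDerivAt h hx).fderiv, normDet_graph h.unit]
  · rw [(area_hasFDerivAt h hx).fderiv]
    intro a b hab
    have h2 : p + (a : E) + ⟪g x, a⟫ • e = p + (b : E) + ⟪g x, b⟫ • e := by
      rw [add_assoc, add_assoc]
      exact congrArg (fun y => p + y) hab
    rw [← pr_line p a ⟪g x, a⟫, h2, pr_line]

theorem Gr.finite_ar {d : ℕ} (hA : StArea E) (hE : finrank ℝ E = d + 1) (h : Gr S p e ρ v g) :
    IsFiniteMeasure ((ar d S).restrict (cyl p e ρ)) := by
  refine ⟨?_⟩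
  rw [← lintegral_one, h.lintegral_ar hA hE measurable_const]
  calc _ ≤ ∫⁻ _ in ball (0 : (ℝ ∙ e)ᗮ) ρ, ENNReal.ofReal 2 :=
        setLIntegral_mono' measurableSet_ball fun x hx => by
          rw [one_mul]; exact ENNReal.ofReal_le_ofReal (area_W h hx)
    _ < ⊤ := by
        rw [setLIntegral_const]
        exact ENNReal.mul_lt_top ENNReal.ofReal_lt_top measure_ball_lt_top

/-- `(ar d S).restrict cyl` is the image under `GG` of `(volume.restrict ball).withDensity √(1 + ‖g‖²)`;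
`integral_map`, `integral_withDensity_eq_integral_toReal_smul₀` -/
theorem Gr.integral_ar {d : ℕ} (hA : StArea E) (hE : finrank ℝ E = d + 1) (h : Gr S p e ρ v g)
    {φ : E → ℝ} (hφ : ContinuousOn φ (cyl p e ρ)) :
    ∫ y in cyl p e ρ, φ y ∂ar d S = ∫ x in ball 0 ρ, φ (GG p e v x) * √(1 + ‖g x‖ ^ 2) := by
  have hW : AEMeasurable (fun x => ENNReal.ofReal √(1 + ‖g x‖ ^ 2)) (volume.restrict (ball 0 ρ)) :=
    ((area_W_cont h).aemeasurable measurableSet_ball).ennreal_ofReal
  have hG : AEMeasurable (GG p e v) (volume.restrict (ball 0 ρ)) :=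
    (area_contDiffOn h).continuousOn.aemeasurable measurableSet_ball
  have hG' := hG.mono_ac (withDensity_absolutelyContinuous _ fun x => ENNReal.ofReal √(1 + ‖g x‖ ^ 2))
  have h1 : (ar d S).restrict (cyl p e ρ) = ((volume.restrict (ball 0 ρ)).withDensity
      fun x => ENNReal.ofReal √(1 + ‖g x‖ ^ 2)).map (GG p e v) := by
    refine Measure.ext_of_lintegral _ fun ψ hψ => ?_
    rw [h.lintegral_ar hA hE hψ, lintegral_map' hψ.aemeasurable hG',
      lintegral_withDensity_eq_lintegral_mul₀ (g := fun x => ψ (GG p e v x)) hW (hψ.comp_aemeasurable hG)]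
    simp only [Pi.mul_apply, mul_comm]
  have h2 : AEStronglyMeasurable φ ((ar d S).restrict (cyl p e ρ)) :=
    hφ.aestronglyMeasurable (isOpen_cyl p e ρ).measurableSet
  rw [h1] at h2 ⊢
  rw [integral_map hG' h2, integral_withDensity_eq_integral_toReal_smul₀ hW
    (ae_of_all _ fun _ => ENNReal.ofReal_lt_top)]
  simp only [ENNReal.toReal_ofReal (Real.sqrt_nonneg _), smul_eq_mul, mul_comm]

/-- `gk d q r (GG x) ≤ gk d (pr p e q) r x`, `integral_gk` in the base -/
theorem Gr.th_le {d : ℕ} (hA : StArea E) (hE : finrank ℝ E = d + 1) (h : Gr S p e ρ v g) (q : E)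
    {r : ℝ} (hr : 0 < r) : th d ((ar d S).restrict (cyl p e ρ)) q r ≤ 2 := by
  have hi := (integrable_gk d (pr p e q) hr).mul_const 2
  have h1 := integral_gk (pr p e q) hr
  rw [finrank_orth' hE h.unit] at h1
  rw [th, h.integral_ar hA hE (continuous_gk d q r).continuousOn]
  calc _ ≤ ∫ x in ball 0 ρ, gk d (pr p e q) r x * 2 := by
        refine integral_mono_of_nonneg (ae_of_all _ fun x => ?_) hi.integrableOn
          ((ae_restrict_mem measurableSet_ball).mono fun x hx => ?_)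
        · exact mul_nonneg (gk_pos d q hr _).le (Real.sqrt_nonneg _)
        · refine mul_le_mul ?_ (area_W h hx) (Real.sqrt_nonneg _) (gk_pos d _ hr _).le
          have h2 : GG p e v x - q = ((x - pr p e q : (ℝ ∙ e)ᗮ) : E) + (v x - ⟪e, q - p⟫) • e := by
            conv_lhs => rw [← decomp h.unit p q]
            simp only [GG, Submodule.coe_sub, sub_smul]
            abel
          have := Real.pi_pos
          unfold gk
          rw [h2, norm_sq_line h.unit]
          gcongr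
          exact le_add_of_nonneg_right (sq_nonneg _)
    _ ≤ ∫ x, gk d (pr p e q) r x * 2 :=
        setIntegral_le_integral hi (ae_of_all _ fun x => mul_nonneg (gk_pos d _ hr _).le zero_le_two)
    _ = 2 := by rw [integral_mul_const, h1, one_mul]

/-- the tilted plane has density one: with `A = 1 + c a ⊗ a`, `(1 + c ‖a‖²)² = 1 + ‖a‖²`, one has
`‖A z‖² = ‖z‖² + ⟪a, z⟫²` and `det A = √(1 + ‖a‖²)`; linear change of variables, `integral_gk` -/
theorem integral_tilt {H : Type} [NormedAddCommGroup H] [InnerProductSpace ℝ H] [FiniteDimensional ℝ H]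
    [MeasurableSpace H] [BorelSpace H] (a : H) :
    ∫ z, gk (finrank ℝ H) 0 1 z * Real.exp (-⟪a, z⟫ ^ 2 / 2) * √(1 + ‖a‖ ^ 2) = 1 := by
  set w := √(1 + ‖a‖ ^ 2) with hw
  have hw0 : 0 < w := Real.sqrt_pos.2 (by positivity)
  have hw2 : w ^ 2 = 1 + ‖a‖ ^ 2 := Real.sq_sqrt (by positivity)
  set A : H →L[ℝ] H := ContinuousLinearMap.id ℝ H + (innerSL ℝ a).smulRight ((w + 1)⁻¹ • a) with hA
  have hAz : ∀ z, A z = z + ⟪a, z⟫ • (w + 1)⁻¹ • a := fun z => rfl
  have hdet : A.det = w := by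
    have h1 : (A : H →ₗ[ℝ] H) = LinearMap.transvection (innerSL ℝ a : H →ₗ[ℝ] ℝ) ((w + 1)⁻¹ • a) :=
      LinearMap.ext fun z => rfl
    rw [ContinuousLinearMap.det, h1, LinearMap.transvection.det]
    simp only [ContinuousLinearMap.coe_coe, innerSL_apply_apply, inner_smul_right,
      real_inner_self_eq_norm_sq]
    field_simp
    linarith
  have hnorm : ∀ z, ‖A z‖ ^ 2 = ‖z‖ ^ 2 + ⟪a, z⟫ ^ 2 := fun z => by
    rw [hAz, norm_add_sq_real, smul_smul, norm_smul, mul_pow, Real.norm_eq_abs, sq_abs, inner_smul_right,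
      real_inner_comm]
    have h1 : ‖a‖ ^ 2 = w ^ 2 - 1 := by linarith
    rw [h1]
    field_simp
    ring
  have hinj : Function.Injective A := (injective_iff_map_eq_zero A).2 fun z hz => by
    have h1 := hnorm z
    rw [hz, norm_zero] at h1
    have h2 : ‖z‖ ^ 2 = 0 := by nlinarith [sq_nonneg ‖z‖, sq_nonneg ⟪a, z⟫]
    simpa using h2
  have hsurj : Function.Surjective A := LinearMap.injective_iff_surjective (f := (A : H →ₗ[ℝ] H)).1 hinj
  have h1 := integral_image_eq_integral_abs_det_fderiv_smul volume MeasurableSet.univ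
    (fun x _ => A.hasFDerivWithinAt) hinj.injOn (gk (finrank ℝ H) 0 1)
  rw [image_univ, hsurj.range_eq, Measure.restrict_univ, integral_gk 0 one_pos, hdet, abs_of_pos hw0] at h1
  refine Eq.trans (integral_congr_ae (ae_of_all _ fun z => ?_)) h1.symm
  simp only [gk, sub_zero, hnorm, smul_eq_mul]
  rw [show -(‖z‖ ^ 2 + ⟪a, z⟫ ^ 2) / (2 * 1 ^ 2) = -‖z‖ ^ 2 / (2 * 1 ^ 2) + -⟪a, z⟫ ^ 2 / 2 by ring,
    Real.exp_add]
  ring

/-- substitute `x = x₀ + r z`, dominated convergence with the bound `2 gk d 0 1 z`, `integral_tilt` -/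
theorem Gr.th_lim {d : ℕ} (hA : StArea E) (hE : finrank ℝ E = d + 1) (h : Gr S p e ρ v g) {q : E}
    (hq : q ∈ S ∩ cyl p e ρ) : Tendsto (th d ((ar d S).restrict (cyl p e ρ)) q) (𝓝[>] 0) (𝓝 1) := by
  rw [h.inter_eq] at hq
  obtain ⟨x, hx, rfl⟩ := hq
  have hd := finrank_orth' hE h.unit
  have hv := h.contDiffOn_v.continuousOn
  set F : ℝ → (ℝ ∙ e)ᗮ → ℝ := fun r z => ((fun z => x + r • z) ⁻¹' ball 0 ρ).indicator
    (fun z => gk d 0 1 z * Real.exp (-((v (x + r • z) - v x) / r) ^ 2 / 2) *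
      √(1 + ‖g (x + r • z)‖ ^ 2)) z with hF
  have h1 : ∀ r, 0 < r → ∫ z, F r z = th d ((ar d S).restrict (cyl p e ρ)) (GG p e v x) r := fun r hr => by
    rw [th, h.integral_ar hA hE (continuous_gk d _ r).continuousOn, ← integral_indicator measurableSet_ball,
      ← integral_add_left_eq_self ((ball (0 : (ℝ ∙ e)ᗮ) ρ).indicator _) x]
    have h2 := Measure.integral_comp_smul_of_nonneg volume (fun y => (ball (0 : (ℝ ∙ e)ᗮ) ρ).indicator
      (fun y => gk d (GG p e v x) r (GG p e v y) * √(1 + ‖g y‖ ^ 2)) (x + y)) r (hR := hr.le)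
    rw [hd, smul_eq_mul, eq_inv_mul_iff_mul_eq₀ (by positivity)] at h2
    rw [← h2, ← integral_const_mul]
    refine integral_congr_ae (ae_of_all _ fun z => ?_)
    by_cases hz : x + r • z ∈ ball 0 ρ
    · simp only [hF]
      rw [indicator_of_mem hz, indicator_of_mem (show z ∈ (fun z => x + r • z) ⁻¹' ball 0 ρ from hz)]
      have h3 : GG p e v (x + r • z) - GG p e v x =
          ((r • z : (ℝ ∙ e)ᗮ) : E) + (v (x + r • z) - v x) • e := by
        simp only [GG, Submodule.coe_add, sub_smul]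
        abel
      unfold gk
      rw [h3, norm_sq_line h.unit, norm_smul, Real.norm_of_nonneg hr.le, sub_zero,
        show -((r * ‖z‖) ^ 2 + (v (x + r • z) - v x) ^ 2) / (2 * r ^ 2) =
          -‖z‖ ^ 2 / (2 * 1 ^ 2) + -((v (x + r • z) - v x) / r) ^ 2 / 2 by field_simp; ring, Real.exp_add]
      have h4 : (√(2 * π) * 1)⁻¹ ^ d = r ^ d * (√(2 * π) * r)⁻¹ ^ d := by
        rw [← mul_pow]; congr 1; field_simp
      rw [h4]
      ring
    · simp only [hF]
      rw [indicator_of_notMem hz, indicator_of_notMem (show z ∉ (fun z => x + r • z) ⁻¹' ball 0 ρ from hz),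
        mul_zero]
  have h2 := integral_tilt (g x)
  rw [hd] at h2
  refine Tendsto.congr' (eventually_mem_nhdsWithin.mono fun r hr => h1 r hr) ?_
  rw [← h2]
  refine tendsto_integral_filter_of_dominated_convergence (fun z => gk d 0 1 z * 2)
    (Eventually.of_forall fun r => ?_) (Eventually.of_forall fun r => ae_of_all _ fun z => ?_)
    ((integrable_gk d 0 one_pos).mul_const 2) (ae_of_all _ fun z => ?_)
  · have hc : Continuous fun z : (ℝ ∙ e)ᗮ => x + r • z := by fun_prop
    have hm := (isOpen_ball.preimage hc (t := ball 0 ρ)).measurableSet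
    refine (aestronglyMeasurable_indicator_iff hm).2 (ContinuousOn.aestronglyMeasurable ?_ hm)
    have h3 := hv.comp hc.continuousOn (mapsTo_preimage _ _)
    exact ((continuous_gk d 0 1).continuousOn.mul (Real.continuous_exp.comp_continuousOn
      ((((h3.sub continuousOn_const).div_const r).pow 2).neg.div_const 2))).mul
      ((area_W_cont h).comp hc.continuousOn (mapsTo_preimage _ _))
  · have h0 := (gk_pos d (0 : (ℝ ∙ e)ᗮ) one_pos z).le
    by_cases hz : z ∈ (fun z => x + r • z) ⁻¹' ball 0 ρ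
    · simp only [hF]
      rw [indicator_of_mem hz, Real.norm_of_nonneg (by positivity)]
      refine mul_le_mul (mul_le_of_le_one_right h0 (Real.exp_le_one_iff.2 ?_)) (area_W h hz)
        (Real.sqrt_nonneg _) h0
      have := sq_nonneg ((v (x + r • z) - v x) / r)
      linarith
    · simp only [hF]
      rw [indicator_of_notMem hz, norm_zero]
      positivity
  · have h3 : Tendsto (fun r : ℝ => x + r • z) (𝓝[>] 0) (𝓝 x) := by
      have h4 : Continuous fun r : ℝ => x + r • z := by fun_prop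
      have h5 := h4.tendsto 0
      rw [zero_smul, add_zero] at h5
      exact h5.mono_left nhdsWithin_le_nhds
    have h4 : Tendsto (fun r : ℝ => (v (x + r • z) - v x) / r) (𝓝[>] 0) (𝓝 ⟪g x, z⟫) := by
      have h5 : HasDerivAt (fun r : ℝ => x + r • z) z 0 := by
        simpa using ((hasDerivAt_id (0 : ℝ)).smul_const z).const_add x
      have h6 : HasFDerivAt v (InnerProductSpace.toDual ℝ _ (g x)) (x + (0 : ℝ) • z) := by
        rw [zero_smul, add_zero]; exact (h.grad x hx).hasFDerivAt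
      have h7 := (h6.comp_hasDerivAt (0 : ℝ) h5).tendsto_slope_zero_right
      simpa [div_eq_inv_mul] using h7
    have h5 := (((area_W_cont h).continuousAt (isOpen_ball.mem_nhds hx)).tendsto).comp h3
    have h6 := ((Real.continuous_exp.tendsto _).comp ((h4.pow 2).neg.div_const 2)).const_mul (gk d 0 1 z)
    refine (h6.mul h5).congr' ((h3.eventually (isOpen_ball.mem_nhds hx)).mono fun r hr => ?_)
    simp only [hF]
    rw [indicator_of_mem (show z ∈ (fun z => x + r • z) ⁻¹' ball 0 ρ from hr)]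
    rfl

end Crest.Agent.R246.F2
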