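import Crest.Agent.R246.F2.Defs

/-!
# Row 246, block F2: colourings are constant on connected sets
-/

set_option autoImplicit false
set_option linter.unusedSectionVars false

open MeasureTheory Metric Filter Topology Set Module
open scoped RealInnerProductSpace ENNReal ContDiff Real

noncomputable section

namespace Crest.Agent.R246.F2

variable {E : Type} [NormedAddCommGroup E] [InnerProductSpace ℝ E] [FiniteDimensional ℝ E]
  [MeasurableSpace E] [BorelSpace E]

theorem col_eq {C : Set E} {s : E → ℝ} (h : Col C s) {A : Set E} (hA : IsPreconnected A)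
    (hd : ∀ y ∈ A, y ∉ C) {y y' : E} (hy : y ∈ A) (hy' : y' ∈ A) : s y = s y' := by
  have hc : ContinuousOn s A := fun z hz =>
    ContinuousAt.continuousWithinAt
      (tendsto_const_nhds.congr' ((h.loc z (hd z hz)).mono fun _ hw => hw.symm))
  have key : ∀ a ∈ A, ∀ b ∈ A, s a = -1 → s b = 1 → False := fun a ha b hb h1 h2 => by
    obtain ⟨z, -, hz⟩ := hA.intermediate_value ha hb hc (show (0 : ℝ) ∈ Icc (s a) (s b) by
      rw [h1, h2]; norm_num)
    rcases h.sign z with h3 | h3 <;> rw [h3] at hz <;> norm_num at hz
  rcases h.sign y with h1 | h1 <;> rcases h.sign y' with h2 | h2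
  · rw [h1, h2]
  · exact (key _ hy' _ hy h2 h1).elim
  · exact (key _ hy _ hy' h1 h2).elim
  · rw [h1, h2]

end Crest.Agent.R246.F2
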