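import Crest.Agent.R246.Fub
import Crest.Agent.R246.B2.Ker

/-!
# Row 246, block F2 (owner helper43): definitions.  FROZEN.
`Tang`: tangent hyperplane; `Gr`: a `C¹` graph in a cylinder; `nrm`: unit normal of a level set.
-/

set_option autoImplicit false
set_option linter.unusedSectionVars false

open MeasureTheory Metric Filter Topology Set Module
open scoped RealInnerProductSpace ENNReal ContDiff Real

noncomputable section

namespace Crest.Agent.R246.F2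

variable {E : Type} [NormedAddCommGroup E] [InnerProductSpace ℝ E] [FiniteDimensional ℝ E]
  [MeasurableSpace E] [BorelSpace E]

/-- `S` is tangent at `q` to the hyperplane `e^⊥` -/
def Tang (S : Set E) (q e : E) : Prop :=
  ∀ ε : ℝ, 0 < ε → ∃ δ : ℝ, 0 < δ ∧ ∀ y ∈ S, ‖y - q‖ < δ → |⟪e, y - q⟫| ≤ ε * ‖y - q‖

/-- horizontal coordinate -/
def pr (p e y : E) : (ℝ ∙ e)ᗮ := (ℝ ∙ e)ᗮ.orthogonalProjectionOnto (y - p)

/-- open cylinder -/
def cyl (p e : E) (ρ : ℝ) : Set E := {y | ‖pr p e y‖ < ρ ∧ |⟪e, y - p⟫| < ρ}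

/-- defining function of the graph of `v` -/
def fG (p e : E) (v : (ℝ ∙ e)ᗮ → ℝ) (y : E) : ℝ := ⟪e, y - p⟫ - v (pr p e y)

/-- graph map -/
def GG (p e : E) (v : (ℝ ∙ e)ᗮ → ℝ) (x : (ℝ ∙ e)ᗮ) : E := p + (x : E) + v x • e

/-- in the cylinder `cyl p e ρ`, `S` is the graph of the `C¹` function `v` with gradient `g` -/
structure Gr (S : Set E) (p e : E) (ρ : ℝ) (v : (ℝ ∙ e)ᗮ → ℝ) (g : (ℝ ∙ e)ᗮ → (ℝ ∙ e)ᗮ) : Prop where
  unit : ‖e‖ = 1
  pos : 0 < ρ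
  v0 : v 0 = 0
  g0 : g 0 = 0
  grad : ∀ x ∈ ball 0 ρ, HasGradientAt v (g x) x
  cont : ContinuousOn g (ball 0 ρ)
  small : ∀ x ∈ ball 0 ρ, ‖g x‖ ≤ 1 / 2
  mem : ∀ x ∈ ball (0 : (ℝ ∙ e)ᗮ) ρ, ∀ t : ℝ, |t| < ρ → (p + (x : E) + t • e ∈ S ↔ t = v x)

/-- unit normal of the level sets of `f` -/
def nrm (f : E → ℝ) (y : E) : E := ‖gradient f y‖⁻¹ • gradient f y

/-- foot point `ξ` and signed height `τ` over `{f = 0}`, on the open set `O` -/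
structure Foot (f : E → ℝ) (U O : Set E) (ξ : E → E) (τ : E → ℝ) : Prop where
  isOpen : IsOpen O
  smooth_ξ : ContDiffOn ℝ ∞ ξ O
  smooth_τ : ContDiffOn ℝ ∞ τ O
  mem : ∀ y ∈ O, ξ y ∈ U
  zero : ∀ y ∈ O, f (ξ y) = 0
  eq : ∀ y ∈ O, ξ y + τ y • nrm f (ξ y) = y

end Crest.Agent.R246.F2
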