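import Crest.Agent.R246.F2.Foot
import Crest.Agent.R246.F2.Col

/-!
# Row 246, block F2: the signed distance function.  Statements FROZEN (owner helper43).
-/

set_option autoImplicit false
set_option linter.unusedSectionVars false

open MeasureTheory Metric Filter Topology Set Module
open scoped RealInnerProductSpace ENNReal ContDiff Real

noncomputable section

namespace Crest.Agent.R246.F2

variable {E : Type} [NormedAddCommGroup E] [InnerProductSpace ℝ E] [FiniteDimensional ℝ E]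
  [MeasurableSpace E] [BorelSpace E]

variable {C : Set E} {s : E → ℝ}

/-- a ball on which all gradients make acute angles -/
theorem dist_ball {f : E → ℝ} {U : Set E} (hU : IsOpen U) (hf : ContDiffOn ℝ ∞ f U) {p : E} (hp : p ∈ U)
    (hne : gradient f p ≠ 0) : ∃ ε, 0 < ε ∧ ball p ε ⊆ U ∧
      ∀ a ∈ ball p ε, ∀ b ∈ ball p ε, 0 < ⟪gradient f a, gradient f b⟫ := by
  have hg : ContinuousAt (gradient f) p :=
    (foot_contDiffOn_gradient hU hf).continuousOn.continuousAt (hU.mem_nhds hp)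
  have h1 : ContinuousAt (fun z : E × E => ⟪gradient f z.1, gradient f z.2⟫) (p, p) :=
    (ContinuousAt.comp (g := gradient f) (f := Prod.fst) (x := (p, p)) hg continuousAt_fst).inner
      (ContinuousAt.comp (g := gradient f) (f := Prod.snd) (x := (p, p)) hg continuousAt_snd)
  have h2 : ∀ᶠ z : E × E in 𝓝 (p, p), 0 < ⟪gradient f z.1, gradient f z.2⟫ :=
    h1.eventually (lt_mem_nhds (real_inner_self_pos.2 hne))
  obtain ⟨ε₁, h3, h4⟩ := Metric.mem_nhds_iff.1 h2
  obtain ⟨ε₂, h5, h6⟩ := Metric.isOpen_iff.1 hU p hp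
  refine ⟨min ε₁ ε₂, lt_min h3 h5, (ball_subset_ball (min_le_right _ _)).trans h6, fun a ha b hb => ?_⟩
  have h7 : (a, b) ∈ ball (p, p) ε₁ := by
    rw [← ball_prod_same]
    exact ⟨ball_subset_ball (min_le_left _ _) ha, ball_subset_ball (min_le_left _ _) hb⟩
  exact h4 h7

/-- Lagrange multipliers -/
theorem dist_lagrange {p : E} {f : E → ℝ} {U : Set E} (h : LocAt C p f U) {x y : E} (hx : x ∈ C) (hxU : x ∈ U)
    (hmin : ∀ z ∈ C, dist y x ≤ dist y z) : ∃ t : ℝ, x + t • nrm f x = y := by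
  have hf0 : f x = 0 := (h.zero_iff x hxU).1 hx
  have h1 : IsLocalExtrOn (fun z => ‖z - y‖ ^ 2) {z | f z = f x} x := by
    refine Or.inl ?_
    filter_upwards [self_mem_nhdsWithin, mem_nhdsWithin_of_mem_nhds (h.isOpen.mem_nhds hxU)] with z hz hzU
    have h2 := hmin z ((h.zero_iff z hzU).2 (hz.trans hf0))
    rw [dist_comm y x, dist_comm y z, dist_eq_norm, dist_eq_norm] at h2
    gcongr
  have h2 : HasStrictFDerivAt f (fderiv ℝ f x) x :=
    (h.smooth.contDiffAt (h.isOpen.mem_nhds hxU)).hasStrictFDerivAt (by simp)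
  have h3 : HasStrictFDerivAt (fun z => ‖z - y‖ ^ 2) (2 • innerSL ℝ (x - y)) x := by
    have := (hasStrictFDerivAt_norm_sq (x - y)).comp x ((hasStrictFDerivAt_id x).sub_const y)
    simpa [Function.comp_def] using this
  obtain ⟨a, b, hab, h4⟩ := h1.exists_multipliers_of_hasStrictFDerivAt_1d h2 h3
  have h5 : a • gradient f x + (2 * b) • (x - y) = 0 := by
    refine ext_inner_right ℝ fun v => ?_
    have := congr($h4 v)
    simp only [add_apply, smul_apply, foot_fderiv, innerSL_apply_apply, zero_apply, smul_eq_mul,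
      nsmul_eq_mul, Nat.cast_ofNat] at this
    simp only [inner_add_left, inner_smul_left, conj_trivial, inner_zero_left]
    linarith
  have hg := h.grad_ne x hxU
  have hb : b ≠ 0 := by
    rintro rfl
    simp only [mul_zero, zero_smul, add_zero, smul_eq_zero, hg, or_false] at h5
    exact hab (by simp [h5])
  refine ⟨a / (2 * b) * ‖gradient f x‖, ?_⟩
  have h6 : ‖gradient f x‖ ≠ 0 := norm_ne_zero_iff.2 hg
  have h7 : a • gradient f x = (2 * b) • (y - x) := by
    rw [← neg_sub x y, smul_neg]; exact eq_neg_of_add_eq_zero_left h5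
  rw [nrm, smul_smul, mul_assoc, mul_inv_cancel₀ h6, mul_one, div_eq_inv_mul, mul_smul, h7, smul_smul,
    inv_mul_cancel₀ (mul_ne_zero two_ne_zero hb), one_smul, add_sub_cancel]

/-- nearest point (`IsClosed.exists_infDist_eq_dist`), Lagrange multipliers
(`IsLocalExtrOn.exists_multipliers_of_hasStrictFDerivAt_1d` for `‖· - y‖²` on `{f = 0}`); sign: `t ↦ f (x + t N x)` is
strictly increasing as long as `⟪∇f a, ∇f b⟫ > 0` for `a, b` in a ball around `p` -/
theorem exists_nearest (hC : IsClosed C) {p : E} (hp : p ∈ C) {f : E → ℝ} {U : Set E} (h : LocAt C p f U)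
    {δ : ℝ} (hδ : 0 < δ) : ∀ᶠ y in 𝓝 p, ∃ (x : E) (t : ℝ), ‖x - p‖ < δ ∧ |t| < δ ∧ f x = 0 ∧
      x + t • nrm f x = y ∧ |t| = infDist y C ∧ (t ≠ 0 → 0 < t * f y) := by
  obtain ⟨ε, hε, hU, hpos⟩ := dist_ball h.isOpen h.smooth h.mem (h.grad_ne p h.mem)
  have hm : 0 < min ε δ / 2 := half_pos (lt_min hε hδ)
  have hm1 := min_le_left ε δ
  have hm2 := min_le_right ε δ
  filter_upwards [ball_mem_nhds p hm] with y hy
  obtain ⟨x, hx, hxy⟩ := hC.exists_infDist_eq_dist ⟨p, hp⟩ y
  have h1 : dist y x ≤ dist y p := hxy ▸ infDist_le_dist_of_mem hp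
  rw [mem_ball] at hy
  have h2 : dist x p < min ε δ := by
    have := dist_triangle_left x p y
    linarith
  have hxb : x ∈ ball p ε := h2.trans_le hm1
  have hyb : y ∈ ball p ε := by rw [mem_ball]; linarith
  obtain ⟨t, ht⟩ := dist_lagrange h hx (hU hxb) fun z hz => hxy ▸ infDist_le_dist_of_mem hz
  have hg := h.grad_ne x (hU hxb)
  have h3 : |t| = dist y x := by
    rw [← ht, dist_eq_norm, add_sub_cancel_left, norm_smul, foot_norm_nrm hg, mul_one, Real.norm_eq_abs]
  have hf0 : f x = 0 := (h.zero_iff x (hU hxb)).1 hx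
  refine ⟨x, t, by rw [← dist_eq_norm]; linarith, by linarith, hf0, ht, h3.trans hxy.symm, fun ht0 => ?_⟩
  have hseg : ∀ θ ∈ Icc (0 : ℝ) 1, x + θ • (y - x) ∈ ball p ε := fun θ hθ =>
    (convex_ball p ε).add_smul_sub_mem hxb hyb hθ
  have hder : ∀ θ ∈ Icc (0 : ℝ) 1, HasDerivAt (fun θ : ℝ => f (x + θ • (y - x)))
      ⟪gradient f (x + θ • (y - x)), y - x⟫ θ := fun θ hθ => by
    have h4 : HasDerivAt (fun θ : ℝ => x + θ • (y - x)) (y - x) θ := by
      simpa using ((hasDerivAt_id θ).smul_const (y - x)).const_add x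
    rw [← foot_fderiv]
    exact (foot_diff h.isOpen h.smooth (hU (hseg θ hθ))).hasFDerivAt.comp_hasDerivAt θ h4
  obtain ⟨c, hc, h4⟩ := exists_hasDerivAt_eq_slope _ _ one_pos
    (fun θ hθ => (hder θ hθ).continuousAt.continuousWithinAt) fun θ hθ => hder θ (Ioo_subset_Icc_self hθ)
  have h5 := hpos _ (hseg c (Ioo_subset_Icc_self hc)) _ hxb
  simp only [one_smul, add_sub_cancel, zero_smul, add_zero, hf0, sub_zero, div_one] at h4
  generalize gradient f (x + c • (y - x)) = n at h4 h5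
  have h6 : y - x = t • nrm f x := by rw [← ht, add_sub_cancel_left]
  rw [← h4, h6, nrm, inner_smul_right, inner_smul_right, ← mul_assoc]
  have h7 : 0 < ‖gradient f x‖ := norm_pos_iff.2 hg
  exact mul_pos (mul_self_pos.2 ht0) (by positivity)

/-- near `p` the signed distance is the height `τ` of `exists_foot` -/
theorem dist_loc (hC : IsClosed C) (hs : Col C s) {p : E} (hp : p ∈ C) (h : LocCol C s p) :
    ∃ O : Set E, IsOpen O ∧ p ∈ O ∧ ContDiffOn ℝ ∞ (fun y => s y * infDist y C) O ∧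
      (∀ y ∈ O, ‖gradient (fun y => s y * infDist y C) y‖ = 1) ∧
      lap (fun y => s y * infDist y C) p = 0 := by
  obtain ⟨f, U, h, hcol⟩ := h
  have hf0 : f p = 0 := (h.zero_iff p h.mem).1 hp
  obtain ⟨O, ξ, τ, δ, hpO, hδ, hF, huniq⟩ := exists_foot h.isOpen h.smooth h.grad_ne h.mem hf0
  have hev : ∀ᶠ y in 𝓝 p, y ∈ O ∧ s y * infDist y C = τ y := by
    filter_upwards [hF.isOpen.mem_nhds hpO, h.isOpen.mem_nhds h.mem, exists_nearest hC hp h hδ]
      with y hyO hyU ⟨x, t, h1, h2, h3, h4, h5, h6⟩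
    refine ⟨hyO, ?_⟩
    have h7 := (huniq x t h1 h2 h3).2
    rw [h4] at h7
    rw [h7, ← h5]
    by_cases ht : t = 0
    · simp [ht]
    · have h8 : y ∉ C := fun hy => ht (abs_eq_zero.1 (h5.trans (infDist_zero_of_mem hy)))
      have h9 := hcol y hyU h8
      have h10 := h6 ht
      rcases hs.sign y with h11 | h11 <;> rw [h11] at h9 ⊢
      · rw [one_mul] at h9 ⊢
        exact abs_of_pos (by nlinarith)
      · have h12 : t < 0 := by nlinarith
        rw [abs_of_neg h12]; ring
  obtain ⟨O', h1, hO', hpO'⟩ := _root_.eventually_nhds_iff.1 hev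
  have h2 : ∀ y ∈ O', (fun y => s y * infDist y C) =ᶠ[𝓝 y] τ := fun y hy =>
    mem_of_superset (hO'.mem_nhds hy) fun z hz => (h1 z hz).2
  refine ⟨O', hO', hpO', (hF.smooth_τ.mono fun y hy => (h1 y hy).1).congr fun y hy => (h1 y hy).2,
    fun y hy => ?_, ?_⟩
  · rw [(h2 y hy).gradient_eq, (hF.hasGradientAt h.isOpen h.smooth h.grad_ne (h1 y hy).1).gradient]
    exact foot_norm_nrm (h.grad_ne _ (hF.mem y (h1 y hy).1))
  · have h3 : gradient (fun y => s y * infDist y C) =ᶠ[𝓝 p] gradient τ :=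
      mem_of_superset (hO'.mem_nhds hpO') fun z hz => (h2 z hz).gradient_eq
    have h4 := huniq p 0 (by simpa using hδ) (by simpa using hδ) hf0
    rw [zero_smul, add_zero] at h4
    rw [lap, hess, h3.fderiv_eq]
    exact hF.lap h.isOpen h.smooth h.grad_ne hpO h4.1 h4.2 (h.minimal p h.mem hp)

theorem stDist : StDist E := by
  intro C s hC hs hloc
  have habs : ∀ y, |s y * infDist y C| = infDist y C := fun y => by
    rw [abs_mul, abs_of_nonneg infDist_nonneg]
    rcases hs.sign y with h | h <;> simp [h]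
  have hsm : ∀ t : ℝ, 0 < t → (fun y => t • y) '' C = C := fun t ht => by
    refine Subset.antisymm ?_ fun y hy => ⟨t⁻¹ • y, hC.smul_mem _ (inv_pos.2 ht) y hy, ?_⟩
    · rintro _ ⟨y, hy, rfl⟩
      exact hC.smul_mem t ht y hy
    · exact smul_inv_smul₀ ht.ne' y
  have hO : ∀ p ∈ C \ {0}, _ := fun p hp => dist_loc hC.closed hs hp.1 (hloc p hp.1 hp.2)
  choose! O hO1 hO2 hO3 hO4 hO5 using hO
  refine ⟨hC, habs, continuous_iff_continuousAt.2 fun y => ?_, fun t ht y => ?_,
    ⟨⋃ p ∈ C \ {0}, O p, isOpen_biUnion hO1, fun p hp => mem_biUnion hp (hO2 p hp), fun y hy => ?_,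
      fun y hy => ?_⟩, fun y hy hy0 => hO5 y ⟨hy, hy0⟩⟩
  · by_cases hy : y ∈ C
    · rw [ContinuousAt, infDist_zero_of_mem hy, mul_zero, tendsto_zero_iff_abs_tendsto_zero]
      have := (continuous_infDist_pt C).tendsto y
      rw [infDist_zero_of_mem hy] at this
      exact this.congr fun z => (habs z).symm
    · exact ContinuousAt.mul (tendsto_const_nhds.congr' ((hs.loc y hy).mono fun _ hw => hw.symm))
        (continuous_infDist_pt C).continuousAt
  · have h1 : infDist (t • y) C = t * infDist y C := by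
      have : infDist (t • y) ((fun y => t • y) '' C) = ‖t‖ * infDist y C := infDist_smul₀ ht.ne' C y
      rwa [hsm t ht, Real.norm_of_nonneg ht.le] at this
    by_cases hy : y ∈ C
    · simp [h1, infDist_zero_of_mem hy]
    · have h2 : s (t • y) = s y := by
        refine col_eq hs (A := (fun t : ℝ => t • y) '' Ioi 0)
          (isPreconnected_Ioi.image _ (by fun_prop)) ?_ ⟨t, ht, rfl⟩ ⟨1, mem_Ioi.2 one_pos, one_smul _ _⟩
        rintro _ ⟨u, hu, rfl⟩ h
        have hu' : 0 < u := hu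
        have := hC.smul_mem _ (inv_pos.2 hu') _ h
        rw [inv_smul_smul₀ hu'.ne'] at this
        exact hy this
      simp only [h1, h2]
      ring
  · obtain ⟨p, hp, hyp⟩ := mem_iUnion₂.1 hy
    exact ((hO3 p hp).contDiffAt ((hO1 p hp).mem_nhds hyp)).contDiffWithinAt
  · obtain ⟨p, hp, hyp⟩ := mem_iUnion₂.1 hy
    exact hO4 p hp y hyp

end Crest.Agent.R246.F2
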