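import Crest.Agent.R246.F2.Defs

/-!
# Row 246, block F2: foot point map of a smooth hypersurface.  Statements FROZEN (owner helper43).
-/

set_option autoImplicit false
set_option linter.unusedSectionVars false

open MeasureTheory Metric Filter Topology Set Module
open scoped RealInnerProductSpace ENNReal ContDiff Real

noncomputable section

namespace Crest.Agent.R246.F2

variable {E : Type} [NormedAddCommGroup E] [InnerProductSpace ℝ E] [FiniteDimensional ℝ E]
  [MeasurableSpace E] [BorelSpace E]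

variable {f : E → ℝ} {U O : Set E} {ξ : E → E} {τ : E → ℝ}

theorem foot_contDiffOn_gradient (hU : IsOpen U) (hf : ContDiffOn ℝ ∞ f U) : ContDiffOn ℝ ∞ (gradient f) U :=
  (InnerProductSpace.toDual ℝ E).symm.toContinuousLinearEquiv.contDiff.comp_contDiffOn
    (hf.fderiv_of_isOpen hU le_rfl)

theorem foot_diff {F G : Type} [NormedAddCommGroup F] [NormedSpace ℝ F] [NormedAddCommGroup G]
    [NormedSpace ℝ G] {X : F → G} {W : Set F} (hW : IsOpen W) (hX : ContDiffOn ℝ ∞ X W) {y : F} (hy : y ∈ W) :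
    DifferentiableAt ℝ X y :=
  (hX.contDiffAt (hW.mem_nhds hy)).differentiableAt (by simp)

theorem foot_norm_nrm {y : E} (h : gradient f y ≠ 0) : ‖nrm f y‖ = 1 := by
  rw [nrm, norm_smul, norm_inv, norm_norm, inv_mul_cancel₀ (norm_ne_zero_iff.2 h)]

theorem foot_fderiv (f : E → ℝ) (y v : E) : fderiv ℝ f y v = ⟪gradient f y, v⟫ := by
  rw [gradient, InnerProductSpace.toDual_symm_apply]

theorem contDiffOn_nrm (hU : IsOpen U) (hf : ContDiffOn ℝ ∞ f U) (hne : ∀ y ∈ U, gradient f y ≠ 0) :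
    ContDiffOn ℝ ∞ (nrm f) U := by
  have h := foot_contDiffOn_gradient hU hf
  exact ((h.norm ℝ hne).inv fun y hy => norm_ne_zero_iff.2 (hne y hy)).smul h

/-- Inverse function theorem for `F (x, t) = (x + t • nrm f x, f x)` on `E × ℝ` at `(p, 0)`
(`ContDiffAt.toOpenPartialHomeomorph`; restrict the source to the open set where `x ∈ U` and the derivative is invertible,
`OpenPartialHomeomorph.contDiffAt_symm`), `(ξ y, τ y) = F⁻¹ (y, 0)`. -/
theorem exists_foot (hU : IsOpen U) (hf : ContDiffOn ℝ ∞ f U) (hne : ∀ y ∈ U, gradient f y ≠ 0) {p : E}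
    (hp : p ∈ U) (h0 : f p = 0) :
    ∃ (O : Set E) (ξ : E → E) (τ : E → ℝ) (δ : ℝ), p ∈ O ∧ 0 < δ ∧ Foot f U O ξ τ ∧
      ∀ (x : E) (t : ℝ), ‖x - p‖ < δ → |t| < δ → f x = 0 →
        ξ (x + t • nrm f x) = x ∧ τ (x + t • nrm f x) = t := by
  have hN := contDiffOn_nrm hU hf hne
  set F : E × ℝ → E × ℝ := fun z => (z.1 + z.2 • nrm f z.1, f z.1) with hF
  have hW : IsOpen (Prod.fst ⁻¹' U : Set (E × ℝ)) := hU.preimage continuous_fst
  have hFs : ContDiffOn ℝ ∞ F (Prod.fst ⁻¹' U) :=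
    (contDiffOn_fst.add (contDiffOn_snd.smul (hN.comp contDiffOn_fst fun z hz => hz))).prodMk
      (hf.comp contDiffOn_fst fun z hz => hz)
  have hpW : ((p, 0) : E × ℝ) ∈ Prod.fst ⁻¹' U := hp
  -- the derivative at `(p, 0)` is injective
  have hD : ∀ z : E × ℝ, fderiv ℝ F (p, 0) z = (z.1 + z.2 • nrm f p, ⟪gradient f p, z.1⟫) := fun z => by
    have h1 : HasFDerivAt (fun z : E × ℝ => nrm f z.1) ((fderiv ℝ (nrm f) p).comp (.fst ℝ E ℝ)) (p, 0) :=
      HasFDerivAt.comp (g := nrm f) (f := Prod.fst) ((p, 0) : E × ℝ) (foot_diff hU hN hp).hasFDerivAt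
        hasFDerivAt_fst
    have h2 : HasFDerivAt (fun z : E × ℝ => f z.1) ((fderiv ℝ f p).comp (.fst ℝ E ℝ)) (p, 0) :=
      HasFDerivAt.comp (g := f) (f := Prod.fst) ((p, 0) : E × ℝ) (foot_diff hU hf hp).hasFDerivAt
        hasFDerivAt_fst
    have h3 := (hasFDerivAt_fst.add (hasFDerivAt_snd.smul h1)).prodMk h2
    have h4 : fderiv ℝ F (p, 0) = _ := h3.fderiv
    rw [h4, ← foot_fderiv]
    simp
  have hinj : Function.Injective (fderiv ℝ F (p, 0)) := by
    rw [injective_iff_map_eq_zero]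
    rintro ⟨v, t⟩ h
    rw [hD, Prod.mk_eq_zero] at h
    have h1 : v = -(t • nrm f p) := eq_neg_of_add_eq_zero_left h.1
    have h2 := h.2
    have h3 : ‖gradient f p‖ ≠ 0 := norm_ne_zero_iff.2 (hne p hp)
    simp only [h1, nrm, inner_neg_right, inner_smul_right, real_inner_self_eq_norm_sq, neg_eq_zero,
      mul_eq_zero, inv_eq_zero, pow_eq_zero_iff, h3, ne_eq, OfNat.ofNat_ne_zero, not_false_eq_true,
      or_false] at h2
    simp [h1, h2]
  have hdet : (fderiv ℝ F (p, 0)).det ≠ 0 := by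
    intro h
    exact (LinearMap.bot_lt_ker_of_det_eq_zero h).ne' (LinearMap.ker_eq_bot.2 hinj)
  -- the open set where everything is fine
  have hdc : ContinuousOn (fun z => (fderiv ℝ F z).det) (Prod.fst ⁻¹' U) :=
    ContinuousLinearMap.continuous_det.comp_continuousOn (hFs.continuousOn_fderiv_of_isOpen hW (by simp))
  set W : Set (E × ℝ) := Prod.fst ⁻¹' U ∩ (fun z => (fderiv ℝ F z).det) ⁻¹' {0}ᶜ with hWd
  have hWo : IsOpen W := hdc.isOpen_inter_preimage hW isOpen_compl_singleton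
  have hder : ∀ z (hz : z ∈ W), HasFDerivAt F
      (((fderiv ℝ F z).toContinuousLinearEquivOfDetNeZero hz.2 : (E × ℝ) ≃L[ℝ] (E × ℝ)) :
        (E × ℝ) →L[ℝ] (E × ℝ)) z := fun z hz => by
    rw [ContinuousLinearMap.coe_toContinuousLinearEquivOfDetNeZero]
    exact (foot_diff hW hFs hz.1).hasFDerivAt
  have hpW' : ((p, 0) : E × ℝ) ∈ W := ⟨hp, hdet⟩
  have hFp : ContDiffAt ℝ ∞ F (p, 0) := hFs.contDiffAt (hW.mem_nhds hpW)
  set Φ := (hFp.toOpenPartialHomeomorph F (hder _ hpW') (by simp)).restrOpen W hWo with hΦ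
  have hΦF : ∀ z, Φ z = F z := fun z => rfl
  have hsrc : ∀ z ∈ Φ.source, z ∈ W := fun z hz => hz.2
  have hp1 : ((p, 0) : E × ℝ) ∈ Φ.source :=
    ⟨hFp.mem_toOpenPartialHomeomorph_source (hder _ hpW') (by simp), hpW'⟩
  have hFp0 : F (p, 0) = (p, 0) := by simp [hF, h0]
  have hsm : ∀ a ∈ Φ.target, ContDiffAt ℝ ∞ Φ.symm a := fun a ha =>
    Φ.contDiffAt_symm ha (hder _ (hsrc _ (Φ.map_target ha)))
      (hFs.contDiffAt (hW.mem_nhds (hsrc _ (Φ.map_target ha)).1))
  obtain ⟨δ, hδ, hball⟩ := Metric.isOpen_iff.1 Φ.open_source _ hp1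
  have hemb : ContDiff ℝ ∞ fun y : E => ((y, 0) : E × ℝ) := contDiff_id.prodMk contDiff_const
  have hG : ContDiffOn ℝ ∞ (fun y : E => Φ.symm (y, 0)) {y | ((y, 0) : E × ℝ) ∈ Φ.target} := fun y hy =>
    ((hsm _ hy).comp y hemb.contDiffAt).contDiffWithinAt
  refine ⟨{y | ((y, 0) : E × ℝ) ∈ Φ.target}, fun y => (Φ.symm (y, 0)).1, fun y => (Φ.symm (y, 0)).2, δ,
    ?_, hδ, ⟨Φ.open_target.preimage hemb.continuous, hG.fst, hG.snd, fun y hy => ?_, fun y hy => ?_,
      fun y hy => ?_⟩, fun x t hx ht hfx => ?_⟩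
  · have := Φ.map_source hp1
    rwa [hΦF, hFp0] at this
  · exact (hsrc _ (Φ.map_target hy)).1
  · exact congrArg Prod.snd (Φ.right_inv hy)
  · exact congrArg Prod.fst (Φ.right_inv hy)
  · have h1 : ((x, t) : E × ℝ) ∈ Φ.source := hball (by
      rw [mem_ball, Prod.dist_eq, max_lt_iff, dist_eq_norm, Real.dist_eq, sub_zero]
      exact ⟨hx, ht⟩)
    have h2 := Φ.left_inv h1
    rw [hΦF] at h2
    simp only [hF, hfx] at h2
    simp only [h2, and_self]

theorem foot_deriv (h : Foot f U O ξ τ) (hU : IsOpen U) (hf : ContDiffOn ℝ ∞ f U)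
    (hne : ∀ y ∈ U, gradient f y ≠ 0) {y : E} (hy : y ∈ O) (v : E) :
    fderiv ℝ τ y v = ⟪nrm f (ξ y), v⟫ ∧
      fderiv ℝ ξ y v + τ y • fderiv ℝ (nrm f) (ξ y) (fderiv ℝ ξ y v) + fderiv ℝ τ y v • nrm f (ξ y) = v := by
  have hN := contDiffOn_nrm hU hf hne
  have hξ := (foot_diff h.isOpen h.smooth_ξ hy).hasFDerivAt
  have hτ := (foot_diff h.isOpen h.smooth_τ hy).hasFDerivAt
  have hNξ := (foot_diff hU hN (h.mem y hy)).hasFDerivAt.comp y hξ
  have hfξ := (foot_diff hU hf (h.mem y hy)).hasFDerivAt.comp y hξ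
  have hO := h.isOpen.mem_nhds hy
  have e1 := (hξ.add (hτ.smul hNξ)).unique ((hasFDerivAt_id y).congr_of_eventuallyEq
    (mem_of_superset hO fun z hz => h.eq z hz))
  have e2 := hfξ.unique ((hasFDerivAt_const (0 : ℝ) y).congr_of_eventuallyEq
    (mem_of_superset hO fun z hz => h.zero z hz))
  have e3 := hNξ.norm_sq.unique ((hasFDerivAt_const (1 : ℝ) y).congr_of_eventuallyEq
    (mem_of_superset hO fun z hz => by
      simp [foot_norm_nrm (hne _ (h.mem z hz))]))
  have f1 := congr($e1 v)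
  have f2 := congr($e2 v)
  have f3 := congr($e3 v)
  simp only [add_apply, smul_apply, ContinuousLinearMap.comp_apply, ContinuousLinearMap.smulRight_apply,
    ContinuousLinearMap.id_apply, Function.comp_apply] at f1
  simp only [ContinuousLinearMap.comp_apply, foot_fderiv, zero_apply] at f2
  simp only [smul_apply, ContinuousLinearMap.comp_apply, innerSL_apply_apply, Function.comp_apply,
    zero_apply, nsmul_eq_mul, Nat.cast_ofNat, mul_eq_zero, OfNat.ofNat_ne_zero, false_or] at f3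
  have f4 : ⟪nrm f (ξ y), fderiv ℝ ξ y v⟫ = 0 := by
    rw [nrm, inner_smul_left, f2, mul_zero]
  refine ⟨?_, by rw [add_assoc]; exact f1⟩
  conv_rhs => rw [← f1]
  simp only [inner_add_right, inner_smul_right, f3, f4, real_inner_self_eq_norm_sq,
    foot_norm_nrm (hne _ (h.mem y hy))]
  ring

/-- differentiate `ξ + τ • N ∘ ξ = id`, `f ∘ ξ = 0`, `‖N ∘ ξ‖² = 1` -/
theorem Foot.hasGradientAt (h : Foot f U O ξ τ) (hU : IsOpen U) (hf : ContDiffOn ℝ ∞ f U)
    (hne : ∀ y ∈ U, gradient f y ≠ 0) {y : E} (hy : y ∈ O) : HasGradientAt τ (nrm f (ξ y)) y := by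
  rw [hasGradientAt_iff_hasFDerivAt]
  refine (foot_diff h.isOpen h.smooth_τ hy).hasFDerivAt.congr_fderiv ?_
  ext v
  rw [(foot_deriv h hU hf hne hy v).1, InnerProductSpace.toDual_apply_apply]

theorem foot_trc_rk (a ν : E) : trc (rk a ν) = ⟪ν, a⟫ := by
  have h : ((rk a ν : E →L[ℝ] E) : E →ₗ[ℝ] E) = LinearMap.smulRight (innerSL ℝ ν : E →ₗ[ℝ] ℝ) a := rfl
  rw [trc, h, LinearMap.trace_smulRight]
  rfl

theorem foot_lap (h : Foot f U O ξ τ) (hU : IsOpen U) (hf : ContDiffOn ℝ ∞ f U)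
    (hne : ∀ y ∈ U, gradient f y ≠ 0) {y : E} (hy : y ∈ O) (h1 : ξ y = y) (h2 : τ y = 0)
    (hmin : ‖gradient f y‖ ^ 2 * lap f y = ⟪gradient f y, hess f y (gradient f y)⟫) : lap τ y = 0 := by
  have hN := contDiffOn_nrm hU hf hne
  have hyU : y ∈ U := h1 ▸ h.mem y hy
  have hξ := (foot_diff h.isOpen h.smooth_ξ hy).hasFDerivAt
  have hNy := (foot_diff hU hN hyU).hasFDerivAt
  have hH : hess τ y = (fderiv ℝ (nrm f) y).comp (fderiv ℝ ξ y) := by
    have e : gradient τ =ᶠ[𝓝 y] fun z => nrm f (ξ z) :=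
      mem_of_superset (h.isOpen.mem_nhds hy) fun z hz => (h.hasGradientAt hU hf hne hz).gradient
    rw [hess, e.fderiv_eq]
    have hNy' : HasFDerivAt (nrm f) (fderiv ℝ (nrm f) y) (ξ y) := by rw [h1]; exact hNy
    exact (hNy'.comp y hξ).fderiv
  have hDξ : ∀ v, fderiv ℝ ξ y v = v - ⟪nrm f y, v⟫ • nrm f y := fun v => by
    obtain ⟨e1, e2⟩ := foot_deriv h hU hf hne hy v
    rw [e1, h1, h2, zero_smul, add_zero] at e2
    exact eq_sub_of_add_eq e2
  -- `∇f = a • N`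
  have ha : ContDiffOn ℝ ∞ (fun z => ‖gradient f z‖) U := (foot_contDiffOn_gradient hU hf).norm ℝ hne
  have hay := (foot_diff hU ha hyU).hasFDerivAt
  have ha0 : ‖gradient f y‖ ≠ 0 := norm_ne_zero_iff.2 (hne y hyU)
  have hg : ∀ z ∈ U, gradient f z = ‖gradient f z‖ • nrm f z := fun z hz => by
    rw [nrm, smul_inv_smul₀ (norm_ne_zero_iff.2 (hne z hz))]
  have hHf : ∀ v, hess f y v = ‖gradient f y‖ • fderiv ℝ (nrm f) y v +
      fderiv ℝ (fun z => ‖gradient f z‖) y v • nrm f y := fun v => by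
    have e : gradient f =ᶠ[𝓝 y] fun z => ‖gradient f z‖ • nrm f z :=
      mem_of_superset (hU.mem_nhds hyU) hg
    have e2 : fderiv ℝ (fun z => ‖gradient f z‖ • nrm f z) y = _ := (hay.smul hNy).fderiv
    rw [hess, e.fderiv_eq, e2]
    simp
  set ν := nrm f y with hν
  have hν1 : ⟪ν, ν⟫ = 1 := by rw [real_inner_self_eq_norm_sq, foot_norm_nrm (hne y hyU), one_pow]
  set b := gradient (fun z => ‖gradient f z‖) y with hb
  have key : ‖gradient f y‖ • hess τ y =
      hess f y - rk (hess f y ν) ν - rk ν b + ⟪b, ν⟫ • rk ν ν := by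
    ext v
    simp only [hH, smul_apply, ContinuousLinearMap.comp_apply, hDξ, map_sub, map_smul, add_apply, sub_apply,
      rk, ContinuousLinearMap.smulRight_apply, innerSL_apply_apply, hHf, foot_fderiv, ← hb]
    module
  have htr : ‖gradient f y‖ * lap τ y = lap f y - ⟪ν, hess f y ν⟫ := by
    have e := congrArg trc key
    simp only [trc, ContinuousLinearMap.toLinearMap_smul, ContinuousLinearMap.toLinearMap_add,
      ContinuousLinearMap.toLinearMap_sub, map_add, map_sub, map_smul, smul_eq_mul] at e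
    have t1 := foot_trc_rk (hess f y ν) ν
    have t2 := foot_trc_rk ν b
    have t3 := foot_trc_rk ν ν
    simp only [trc] at t1 t2 t3
    rw [t1, t2, t3, hν1] at e
    simp only [lap, trc]
    linarith
  have h3 : ⟪gradient f y, hess f y (gradient f y)⟫ = ‖gradient f y‖ ^ 2 * ⟪ν, hess f y ν⟫ := by
    conv_lhs => rw [hg y hyU]
    simp only [map_smul, inner_smul_left, inner_smul_right, conj_trivial, ← hν]
    ring
  rw [h3, mul_right_inj' (pow_ne_zero 2 ha0)] at hmin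
  rw [hmin, sub_self] at htr
  exact (mul_eq_zero.1 htr).resolve_left ha0

/-- at a point of the hypersurface `Dξ = prj N`, `hess τ = DN ∘ prj N`, `DN = ‖∇f‖⁻¹ prj N ∘ hess f`, and
`trc (prj N ∘ H ∘ prj N) = trc H - ⟪N, H N⟫` -/
theorem Foot.lap (h : Foot f U O ξ τ) (hU : IsOpen U) (hf : ContDiffOn ℝ ∞ f U)
    (hne : ∀ y ∈ U, gradient f y ≠ 0) {y : E} (hy : y ∈ O) (h1 : ξ y = y) (h2 : τ y = 0)
    (hmin : ‖gradient f y‖ ^ 2 * lap f y = ⟪gradient f y, hess f y (gradient f y)⟫) : lap τ y = 0 := by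
  exact foot_lap h hU hf hne hy h1 h2 hmin

end Crest.Agent.R246.F2
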