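import Crest.Agent.R246.F2.Defs

/-!
# Row 246, block F2: elementary facts on graphs in cylinders.  Statements FROZEN (owner helper43).
-/

set_option autoImplicit false
set_option linter.unusedSectionVars false

open MeasureTheory Metric Filter Topology Set Module
open scoped RealInnerProductSpace ENNReal ContDiff Real

noncomputable section

namespace Crest.Agent.R246.F2

variable {E : Type} [NormedAddCommGroup E] [InnerProductSpace ℝ E] [FiniteDimensional ℝ E]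
  [MeasurableSpace E] [BorelSpace E]

variable {S : Set E} {p e : E} {ρ : ℝ} {v : (ℝ ∙ e)ᗮ → ℝ} {g : (ℝ ∙ e)ᗮ → (ℝ ∙ e)ᗮ}

theorem coe_pr (he : ‖e‖ = 1) (p y : E) : (pr p e y : E) = y - p - ⟪e, y - p⟫ • e := by
  rw [pr, ← Submodule.starProjection_apply, Submodule.starProjection_orthogonal_val,
    Submodule.starProjection_unit_singleton ℝ he]

theorem decomp (he : ‖e‖ = 1) (p y : E) : p + (pr p e y : E) + ⟪e, y - p⟫ • e = y := by
  rw [coe_pr he]
  abel

theorem pr_line (p : E) (x : (ℝ ∙ e)ᗮ) (t : ℝ) : pr p e (p + (x : E) + t • e) = x := by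
  have h : (ℝ ∙ e)ᗮ.orthogonalProjectionOnto e = 0 :=
    Submodule.orthogonalProjectionOnto_orthogonal_apply_eq_zero (Submodule.mem_span_singleton_self e)
  rw [pr, add_assoc, add_sub_cancel_left, map_add, map_smul, h, smul_zero, add_zero,
    Submodule.orthogonalProjectionOnto_mem_subspace_eq_self]

theorem inner_line (he : ‖e‖ = 1) (p : E) (x : (ℝ ∙ e)ᗮ) (t : ℝ) :
    ⟪e, p + (x : E) + t • e - p⟫ = t := by
  rw [add_assoc, add_sub_cancel_left, inner_add_right, inner_orth, inner_smul_right,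
    real_inner_self_eq_norm_sq, he]
  ring

theorem hasFDerivAt_pr (p e y : E) : HasFDerivAt (pr p e) (ℝ ∙ e)ᗮ.orthogonalProjectionOnto y := by
  exact (ℝ ∙ e)ᗮ.orthogonalProjectionOnto.hasFDerivAt.comp y ((hasFDerivAt_id y).sub_const p)

theorem contDiff_pr (p e : E) {n : WithTop ℕ∞} : ContDiff ℝ n (pr p e) := by
  exact (ℝ ∙ e)ᗮ.orthogonalProjectionOnto.contDiff.comp (contDiff_id.sub contDiff_const)

/-- chain rule; the adjoint of the projection is the inclusion -/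
theorem hasGradientAt_comp_pr {φ : (ℝ ∙ e)ᗮ → ℝ} {a : (ℝ ∙ e)ᗮ} {y : E} (h : HasGradientAt φ a (pr p e y)) :
    HasGradientAt (fun y => φ (pr p e y)) (a : E) y := by
  rw [hasGradientAt_iff_hasFDerivAt]
  refine (h.hasFDerivAt.comp y (hasFDerivAt_pr p e y)).congr_fderiv ?_
  ext w
  simp

theorem isOpen_cyl (p e : E) (ρ : ℝ) : IsOpen (cyl p e ρ) := by
  exact (isOpen_lt (contDiff_pr p e (n := 0)).continuous.norm continuous_const).inter
    (isOpen_lt (show Continuous fun y : E => |⟪e, y - p⟫| by fun_prop) continuous_const)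

theorem mem_cyl_self (p e : E) (hρ : 0 < ρ) : p ∈ cyl p e ρ := by
  simp [cyl, pr, hρ]

theorem cyl_subset_ball (he : ‖e‖ = 1) (p : E) (ρ : ℝ) : cyl p e ρ ⊆ ball p (2 * ρ) := by
  intro y hy
  have h1 : y - p = (pr p e y : E) + ⟪e, y - p⟫ • e := by rw [coe_pr he]; abel
  have h2 := norm_add_le (pr p e y : E) (⟪e, y - p⟫ • e)
  rw [← h1, norm_smul, he, mul_one, Real.norm_eq_abs, ← Submodule.coe_norm] at h2
  have h3 := hy.1
  have h4 := hy.2
  rw [mem_ball, dist_eq_norm]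
  linarith

theorem norm_sq_sub (he : ‖e‖ = 1) (a : (ℝ ∙ e)ᗮ) : ‖e - (a : E)‖ ^ 2 = 1 + ‖a‖ ^ 2 := by
  rw [norm_sub_sq_real, inner_orth, he]
  simp

theorem Gr.mono (h : Gr S p e ρ v g) {ρ' : ℝ} (h0 : 0 < ρ') (h1 : ρ' ≤ ρ) : Gr S p e ρ' v g := by
  have hs : ball (0 : (ℝ ∙ e)ᗮ) ρ' ⊆ ball 0 ρ := ball_subset_ball h1
  exact ⟨h.unit, h0, h.v0, h.g0, fun x hx => h.grad x (hs hx), h.cont.mono hs, fun x hx => h.small x (hs hx),
    fun x hx t ht => h.mem x (hs hx) t (ht.trans_le h1)⟩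

/-- shrink the radius so that `K ρ ^ α ≤ 1 / 2` (or use continuity of `g` at `0`) -/
theorem exists_gr (h : HGraph S p) {δ : ℝ} (hδ : 0 < δ) :
    ∃ (e : E) (ρ α K : ℝ) (v : (ℝ ∙ e)ᗮ → ℝ) (g : (ℝ ∙ e)ᗮ → (ℝ ∙ e)ᗮ), ρ ≤ δ ∧ 0 < α ∧ α < 1 ∧
      Gr S p e ρ v g ∧ ∀ x ∈ ball 0 ρ, ∀ x' ∈ ball 0 ρ, ‖g x - g x'‖ ≤ K * ‖x - x'‖ ^ α := by
  obtain ⟨e, ρ, α, K, v, g, he, hρ, hα, hα1, hv, hg, h1, h2, h3⟩ := h
  have hc : ContinuousOn g (ball 0 ρ) := fun x hx => by
    rw [ContinuousWithinAt, tendsto_iff_norm_sub_tendsto_zero]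
    have h4 : Continuous fun y : (ℝ ∙ e)ᗮ => K * ‖y - x‖ ^ α :=
      continuous_const.mul ((Real.continuous_rpow_const hα.le).comp (by fun_prop))
    have h5 := h4.tendsto x
    rw [sub_self, norm_zero, Real.zero_rpow hα.ne', mul_zero] at h5
    exact squeeze_zero' (Eventually.of_forall fun _ => norm_nonneg _)
      (eventually_mem_nhdsWithin.mono fun y hy => h2 y hy x hx) (h5.mono_left nhdsWithin_le_nhds)
  obtain ⟨ε, hε, h4⟩ := Metric.continuousAt_iff.1 (hc.continuousAt (ball_mem_nhds 0 hρ)) (1 / 2) one_half_pos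
  have h5 : min ρ (min ε δ) ≤ ρ := min_le_left _ _
  have h6 : min ρ (min ε δ) ≤ ε := (min_le_right _ _).trans (min_le_left _ _)
  have hs : ball (0 : (ℝ ∙ e)ᗮ) (min ρ (min ε δ)) ⊆ ball 0 ρ := ball_subset_ball h5
  refine ⟨e, min ρ (min ε δ), α, K, v, g, (min_le_right _ _).trans (min_le_right _ _), hα, hα1,
    ⟨he, lt_min hρ (lt_min hε hδ), hv, hg, fun x hx => h1 x (hs hx), hc.mono hs, fun x hx => ?_,
      fun x hx t ht => h3 x (hs hx) t (ht.trans_le h5)⟩, fun x hx x' hx' => h2 x (hs hx) x' (hs hx')⟩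
  have h7 := h4 (ball_subset_ball h6 hx)
  rw [hg, dist_zero_right] at h7
  exact h7.le

/-- mean value inequality (`Convex.norm_image_sub_le_of_norm_hasFDerivWithin_le`) -/
theorem Gr.abs_v (h : Gr S p e ρ v g) {x : (ℝ ∙ e)ᗮ} (hx : x ∈ ball 0 ρ) : |v x| ≤ ‖x‖ / 2 := by
  have h1 := (convex_ball (0 : (ℝ ∙ e)ᗮ) ρ).norm_image_sub_le_of_norm_hasFDerivWithin_le (C := 1 / 2)
    (fun y hy => (h.grad y hy).hasFDerivAt.hasFDerivWithinAt)
    (fun y hy => by simpa using h.small y hy) (mem_ball_self h.pos) hx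
  rw [h.v0, sub_zero, sub_zero, Real.norm_eq_abs] at h1
  linarith

theorem Gr.contDiffOn_v (h : Gr S p e ρ v g) : ContDiffOn ℝ 1 v (ball 0 ρ) := by
  rw [← zero_add (1 : WithTop ℕ∞), contDiffOn_succ_iff_fderiv_of_isOpen isOpen_ball]
  refine ⟨fun x hx => (h.grad x hx).differentiableAt.differentiableWithinAt, by simp, ?_⟩
  rw [contDiffOn_zero]
  exact ((InnerProductSpace.toDual ℝ (ℝ ∙ e)ᗮ).continuous.comp_continuousOn h.cont).congr
    fun x hx => (h.grad x hx).hasFDerivAt.fderiv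

theorem Gr.mem_iff (h : Gr S p e ρ v g) {y : E} (hy : y ∈ cyl p e ρ) : y ∈ S ↔ fG p e v y = 0 := by
  have := h.mem (pr p e y) (mem_ball_zero_iff.2 hy.1) _ hy.2
  rw [decomp h.unit] at this
  rw [this, fG, sub_eq_zero]

theorem Gr.self_mem (h : Gr S p e ρ v g) : p ∈ S := by
  have := h.mem 0 (mem_ball_self h.pos) 0 (by simpa using h.pos)
  simpa [h.v0] using this

theorem Gr.inter_eq (h : Gr S p e ρ v g) : S ∩ cyl p e ρ = GG p e v '' ball 0 ρ := by
  ext y
  constructor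
  · rintro ⟨hS, hy⟩
    have h0 := (h.mem_iff hy).1 hS
    rw [fG, sub_eq_zero] at h0
    exact ⟨pr p e y, mem_ball_zero_iff.2 hy.1, by rw [GG, ← h0, decomp h.unit]⟩
  · rintro ⟨x, hx, rfl⟩
    have h1 : |v x| < ρ := by
      have := h.abs_v hx
      have := mem_ball_zero_iff.1 hx
      have := h.pos
      linarith
    refine ⟨(h.mem x hx _ h1).2 rfl, ?_, ?_⟩
    · rw [GG, pr_line]; exact mem_ball_zero_iff.1 hx
    · rw [GG, inner_line h.unit]; exact h1

theorem Gr.hasGradientAt (h : Gr S p e ρ v g) {y : E} (hy : y ∈ cyl p e ρ) :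
    HasGradientAt (fG p e v) (e - (g (pr p e y) : E)) y := by
  have h1 := hasGradientAt_iff_hasFDerivAt.1
    (hasGradientAt_comp_pr (h.grad _ (mem_ball_zero_iff.2 hy.1)))
  have h2 : HasFDerivAt (fun y : E => ⟪e, y - p⟫) (InnerProductSpace.toDual ℝ E e) y := by
    have := ((InnerProductSpace.toDual ℝ E e).hasFDerivAt (x := y)).sub_const ⟪e, p⟫
    simpa only [InnerProductSpace.toDual_apply_apply, inner_sub_right] using this
  rw [hasGradientAt_iff_hasFDerivAt, map_sub]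
  exact h2.sub h1

theorem contDiffOn_fG {n : WithTop ℕ∞} (hv : ContDiffOn ℝ n v (ball 0 ρ)) :
    ContDiffOn ℝ n (fG p e v) (cyl p e ρ) := by
  refine ContDiffOn.sub ?_ (hv.comp (contDiff_pr p e).contDiffOn fun y hy => mem_ball_zero_iff.2 hy.1)
  exact (contDiff_const.inner ℝ (contDiff_id.sub contDiff_const)).contDiffOn

/-- the part of the cylinder above (`σ = 1`) or below (`σ = -1`) the graph is the image of the convex set
`ball 0 ρ ×ˢ Ioo 0 1` under `(x, θ) ↦ p + x + (v x + θ (σ ρ - v x)) • e` -/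
theorem Gr.isPreconnected (h : Gr S p e ρ v g) {σ : ℝ} (hσ : σ = 1 ∨ σ = -1) :
    IsPreconnected {y ∈ cyl p e ρ | 0 < σ * fG p e v y} := by
  have hv : ∀ x ∈ ball (0 : (ℝ ∙ e)ᗮ) ρ, |v x| < ρ := fun x hx => by
    have := h.abs_v hx
    have := mem_ball_zero_iff.1 hx
    have := h.pos
    linarith
  have hc : ContinuousOn (fun z : (ℝ ∙ e)ᗮ × ℝ => v z.1) (ball 0 ρ ×ˢ Ioo 0 1) :=
    h.contDiffOn_v.continuousOn.comp continuousOn_fst fun z hz => hz.1
  have e1 : {y ∈ cyl p e ρ | 0 < σ * fG p e v y} =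
      (fun z : (ℝ ∙ e)ᗮ × ℝ => p + (z.1 : E) + (v z.1 + z.2 * (σ * ρ - v z.1)) • e) ''
        (ball 0 ρ ×ˢ Ioo 0 1) := by
    ext y
    constructor
    · rintro ⟨hy, hpos⟩
      have hx := mem_ball_zero_iff.2 hy.1
      obtain ⟨a1, a2⟩ := abs_lt.1 (hv _ hx)
      obtain ⟨b1, b2⟩ := abs_lt.1 hy.2
      unfold fG at hpos
      have hne : σ * ρ - v (pr p e y) ≠ 0 := by
        rcases hσ with rfl | rfl
        · linarith
        · linarith
      refine ⟨(pr p e y, (⟪e, y - p⟫ - v (pr p e y)) / (σ * ρ - v (pr p e y))), ⟨hx, ?_⟩, ?_⟩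
      · rcases hσ with rfl | rfl
        · exact ⟨div_pos (by linarith) (by linarith), (div_lt_one (by linarith)).2 (by linarith)⟩
        · exact ⟨div_pos_of_neg_of_neg (by linarith) (by linarith),
            (div_lt_one_of_neg (by linarith)).2 (by linarith)⟩
      · simp only [div_mul_cancel₀ _ hne, add_sub_cancel]
        exact decomp h.unit p y
    · rintro ⟨⟨x, θ⟩, ⟨hx, h0, h1⟩, rfl⟩
      obtain ⟨a1, a2⟩ := abs_lt.1 (hv _ hx)
      simp only [cyl, fG, mem_ofPred_eq, pr_line, inner_line h.unit] at h0 h1 ⊢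
      refine ⟨⟨mem_ball_zero_iff.1 hx, abs_lt.2 ?_⟩, ?_⟩
      · rcases hσ with rfl | rfl <;> constructor <;> nlinarith
      · rcases hσ with rfl | rfl <;> nlinarith
  rw [e1]
  refine ((convex_ball _ _).prod (convex_Ioo _ _)).isPreconnected.image _ ?_
  exact (continuousOn_const.add (continuous_subtype_val.comp continuous_fst).continuousOn).add
    ((hc.add (continuousOn_snd.mul (continuousOn_const.sub hc))).smul continuousOn_const)

end Crest.Agent.R246.F2
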