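import Crest.Agent.R246.F2.Sm

/-! Row 246, block F2: final statements (see `R246/Blueprint.lean`). -/

set_option autoImplicit false

namespace Crest.Agent.R246

theorem stDist : All fun E => StDist E := by
  intro E _ _ _ _ _
  exact F2.stDist

theorem stReg (hB : Bas) (hA : All fun E => StArea E) (hS : All fun E => StSch E) : All fun E => StReg E := by
  intro E _ _ _ _ _
  exact F2.stReg (hB.cone E) (hA E) fun _ => hS _

end Crest.Agent.R246
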