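import Crest.Agent.R246.F2.Weak
import Crest.Agent.R246.F2.Dist

/-!
# Row 246, block F2: `StSm` and `StReg`
-/

set_option autoImplicit false
set_option linter.unusedSectionVars false

open MeasureTheory Metric Filter Topology Set Module
open scoped RealInnerProductSpace ENNReal ContDiff Real

noncomputable section

namespace Crest.Agent.R246.F2

variable {E : Type} [NormedAddCommGroup E] [InnerProductSpace ℝ E] [FiniteDimensional ℝ E]
  [MeasurableSpace E] [BorelSpace E]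

theorem stSm (hA : StArea E) (hS : ∀ e : E, StSch (ℝ ∙ e)ᗮ) : StSm E := by
  intro d hE _ V s Θ hV hΘ hL p _ hp0 hG
  obtain ⟨e, ρ, α, K, v, g, hρ, hα, hα1, h, hK⟩ :=
    exists_gr hG (show 0 < ‖p‖ / 2 from half_pos (norm_pos_iff.2 hp0))
  have hμ := h.meas_eq hA hE hV hΘ hL (by linarith)
  refine ⟨?_, cyl p e ρ, (isOpen_cyl p e ρ).mem_nhds (mem_cyl_self p e h.pos), hμ⟩
  obtain ⟨ρ', h0, h1, hv⟩ := hS e ρ α K v g h.pos hα hα1 h.g0 h.grad hK
    (h.weak hA hE hV.toSV.toSV0 hμ)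
  have h' := h.mono h0 h1
  obtain ⟨σ, hσ, hcol⟩ := h'.colour hV hΘ hL hp0
  have hσ0 : σ ≠ 0 := by rcases hσ with rfl | rfl <;> norm_num
  have hsm : ContDiffOn ℝ ∞ (fun y => σ * fG p e v y) (cyl p e ρ') :=
    contDiffOn_const.mul (contDiffOn_fG hv)
  have hz : ∀ y ∈ cyl p e ρ', y ∈ V.fst.support ↔ σ * fG p e v y = 0 := fun y hy => by
    rw [h'.mem_iff hy, mul_eq_zero, or_iff_right hσ0]
  have hne : ∀ y ∈ cyl p e ρ', gradient (fun y => σ * fG p e v y) y ≠ 0 := fun y hy => by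
    have h2 : HasGradientAt (fun y => σ * fG p e v y) (σ • (e - (g (pr p e y) : E))) y := by
      have h3 := (h'.hasGradientAt hy).hasFDerivAt.const_mul σ
      rw [hasGradientAt_iff_hasFDerivAt, map_smul]
      exact h3
    rw [h2.gradient]
    refine smul_ne_zero hσ0 fun h3 => ?_
    have h4 := norm_sq_sub h.unit (g (pr p e y))
    rw [h3, norm_zero] at h4
    nlinarith [sq_nonneg ‖g (pr p e y)‖]
  refine ⟨_, cyl p e ρ', ⟨isOpen_cyl p e ρ', mem_cyl_self p e h0, hsm, hne, hz, ?_⟩, hcol⟩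
  exact minimal_of hV.toSV.toSV0 (isOpen_cyl p e ρ') (hsm.of_le (WithTop.coe_le_coe.2 le_top))
    (fun y hy hy' => (hz y hy).1 hy') hne

theorem stReg (hC : StCone E) (hA : StArea E) (hS : ∀ e : E, StSch (ℝ ∙ e)ᗮ) : StReg E := by
  intro d hE hd V s Θ hV hc hΘ hL hne hG
  have hsm := stSm hA hS d hE hd V s Θ hV hΘ hL
  have hdil := (hC d hE V hV.toSV.toSV0 hc).2.1
  have hcl : IsClosed V.fst.support := Measure.isClosed_support
  have hcone : CCone V.fst.support := by
    refine ⟨hcl, ?_, hdil⟩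
    obtain ⟨q, hq⟩ := hne
    have h1 : Tendsto (fun t : ℝ => t • q) (𝓝[>] 0) (𝓝 0) := by
      have h2 : Continuous fun t : ℝ => t • q := by fun_prop
      have h3 := h2.tendsto 0
      rw [zero_smul] at h3
      exact h3.mono_left nhdsWithin_le_nhds
    exact hcl.mem_of_tendsto h1 (eventually_mem_nhdsWithin.mono fun t ht => hdil t ht q hq)
  refine ⟨⟨_, stDist _ s hcone hV.col fun p hp hp0 => (hsm p hp hp0 (hG p hp hp0)).1⟩, ?_⟩
  -- the two measures agree
  have hloc : ∀ p ∈ V.fst.support \ {0}, ∃ U ∈ 𝓝 p,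
      V.fst.restrict U = (ar d V.fst.support).restrict U := fun p hp =>
    (hsm p hp.1 hp.2 (hG p hp.1 hp.2)).2
  choose! U hU hUe using hloc
  obtain ⟨T, hT, hTc, hTU⟩ := (HereditarilyLindelofSpace.isLindelof (V.fst.support \ {0})).elim_nhds_subcover U hU
  have h1 : V.fst.restrict (⋃ x ∈ T, U x) = (ar d V.fst.support).restrict (⋃ x ∈ T, U x) :=
    (Measure.restrict_biUnion_congr hT).2 fun x hx => hUe x (hTc x hx)
  have h2 : ∀ᵐ y ∂V.fst, y ∈ ⋃ x ∈ T, U x := by
    have h3 : V.fst {0} = 0 := meas_singleton hd (hV.integ 0) (hV.upper 0)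
    filter_upwards [Measure.support_mem_ae (μ := V.fst), measure_eq_zero_iff_ae_notMem.1 h3] with y hy hy0
    exact hTU ⟨hy, hy0⟩
  have h3 : ∀ᵐ y ∂ar d V.fst.support, y ∈ ⋃ x ∈ T, U x := by
    have h4 : (μHE[d] : Measure E) {0} = 0 := by
      have := Measure.nullSingletonClass_hausdorff E (d := (d : ℝ)) (by exact_mod_cast hd)
      rw [Measure.euclideanHausdorffMeasure_def, Measure.smul_apply, measure_singleton, smul_zero]
    rw [ar, ae_restrict_iff' hcl.measurableSet]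
    filter_upwards [measure_eq_zero_iff_ae_notMem.1 h4] with y hy0 hy
    exact hTU ⟨hy, hy0⟩
  rwa [Measure.restrict_eq_self_of_ae_mem h2, Measure.restrict_eq_self_of_ae_mem h3] at h1

end Crest.Agent.R246.F2
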