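import Crest.Agent.R246.F2.Gauss

/-!
# Row 246, block F2: a stationary varifold supported in a level set.  Statements FROZEN (owner helper43).
-/

set_option autoImplicit false
set_option linter.unusedSectionVars false

open MeasureTheory Metric Filter Topology Set Module
open scoped RealInnerProductSpace ENNReal ContDiff Real

noncomputable section

namespace Crest.Agent.R246.F2

variable {E : Type} [NormedAddCommGroup E] [InnerProductSpace ℝ E] [FiniteDimensional ℝ E]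
  [MeasurableSpace E] [BorelSpace E]

/-- a function which is `C^n` on `U` and vanishes off the support of a cut-off is `C^n` -/
theorem tan_contDiff {F : Type} [NormedAddCommGroup F] [NormedSpace ℝ F] {n : WithTop ℕ∞} {U : Set E}
    (hU : IsOpen U) {χ : E → ℝ} (hs : tsupport χ ⊆ U) {X : E → F} (hX : ContDiffOn ℝ n X U)
    (h0 : ∀ y, χ y = 0 → X y = 0) : ContDiff ℝ n X := by
  refine contDiff_iff_contDiffAt.2 fun y => ?_
  by_cases hy : y ∈ tsupport χ
  · exact hX.contDiffAt (hU.mem_nhds (hs hy))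
  · exact (contDiffAt_const (c := 0)).congr_of_eventuallyEq
      ((notMem_tsupport_iff_eventuallyEq.1 hy).mono fun z hz => h0 z hz)

theorem tan_continuous {F : Type} [NormedAddCommGroup F] [NormedSpace ℝ F] {U : Set E}
    (hU : IsOpen U) {χ : E → ℝ} (hs : tsupport χ ⊆ U) {X : E → F} (hX : ContinuousOn X U)
    (h0 : ∀ y, χ y = 0 → X y = 0) : Continuous X :=
  contDiff_zero.1 (tan_contDiff hU hs (contDiffOn_zero.2 hX) h0)

theorem tan_compact {F : Type} [NormedAddCommGroup F] {χ : E → ℝ} (hc : HasCompactSupport χ) {X : E → F}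
    (h0 : ∀ y, χ y = 0 → X y = 0) : HasCompactSupport X :=
  hc.mono fun y hy h => hy (h0 y h)

theorem tan_divT_zero {χ : E → ℝ} {X : E → E} (h0 : ∀ y, χ y = 0 → X y = 0) {y : E} (hy : y ∉ tsupport χ)
    (w : E) : divT X (y, w) = 0 := by
  have h : X =ᶠ[𝓝 y] fun _ => 0 := (notMem_tsupport_iff_eventuallyEq.1 hy).mono fun z hz => h0 z hz
  simp [divT, h.fderiv_eq, trc]

theorem tan_ae_support (V : Measure (E × E)) : ∀ᵐ z ∂V, z.1 ∈ V.fst.support :=
  ae_of_ae_map measurable_fst.aemeasurable (Measure.support_mem_ae (μ := V.fst))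

theorem tan_integrable {d : ℕ} {V : Measure (E × E)} (hV : SV0 d V) {χ : E → ℝ} (hc : HasCompactSupport χ)
    {h : E × E → ℝ} (hh : Continuous h) (h0 : ∀ z : E × E, χ z.1 = 0 → h z = 0) : Integrable h V := by
  obtain ⟨M, hM⟩ := (hc.isCompact.prod (isCompact_closedBall (0 : E) 1)).exists_bound_of_continuousOn
    hh.continuousOn
  have hm : MeasurableSet (tsupport χ) := (isClosed_tsupport χ).measurableSet
  have hfin : V (Prod.fst ⁻¹' tsupport χ) < ⊤ := by
    rw [← Measure.fst_apply hm]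
    exact meas_compact_lt_top (hV.integ 0 1 one_pos) hc.isCompact
  have hi : Integrable ((Prod.fst ⁻¹' tsupport χ).indicator fun _ : E × E => M) V :=
    (integrable_indicator_iff (measurable_fst hm)).2 (integrableOn_const hfin.ne)
  refine hi.mono' hh.aestronglyMeasurable (hV.unit.mono fun z hz => ?_)
  by_cases hz1 : z.1 ∈ tsupport χ
  · rw [indicator_of_mem (show z ∈ Prod.fst ⁻¹' tsupport χ from hz1)]
    exact hM z ⟨hz1, by simp [hz]⟩
  · rw [indicator_of_notMem (show z ∉ Prod.fst ⁻¹' tsupport χ from hz1),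
      h0 z (image_eq_zero_of_notMem_tsupport hz1), norm_zero]

theorem tan_contDiffOn_gradient {m n : WithTop ℕ∞} {U : Set E} (hU : IsOpen U) {f : E → ℝ}
    (hf : ContDiffOn ℝ n f U) (hmn : m + 1 ≤ n) : ContDiffOn ℝ m (gradient f) U :=
  (InnerProductSpace.toDual ℝ E).symm.toContinuousLinearEquiv.contDiff.comp_contDiffOn
    (hf.fderiv_of_isOpen hU hmn)

theorem tan_step {d : ℕ} {V : Measure (E × E)} (hV : SV0 d V) {U : Set E} (hU : IsOpen U) {f : E → ℝ}
    (hf : ContDiffOn ℝ 1 f U) (h0 : ∀ y ∈ U, y ∈ V.fst.support → f y = 0) {χ : E → ℝ}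
    (hχ : ContDiff ℝ 1 χ) (hc : HasCompactSupport χ) (hs : tsupport χ ⊆ U) {Y : E → E}
    (hY : ContDiff ℝ 1 Y) :
    ∫ z, (⟪χ z.1 • gradient f z.1, Y z.1⟫ - ⟪χ z.1 • gradient f z.1, z.2⟫ * ⟪z.2, Y z.1⟫) ∂V = 0 := by
  have hz : ∀ y, χ y = 0 → f y • χ y • Y y = 0 := fun y hy => by simp [hy]
  have hX : ContDiff ℝ 1 fun y => f y • χ y • Y y :=
    tan_contDiff hU hs (hf.smul (hχ.smul hY).contDiffOn) hz
  rw [← hV.stat _ hX (tan_compact hc hz)]
  refine integral_congr_ae ((tan_ae_support V).mono fun z hz1 => ?_)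
  obtain ⟨y, w⟩ := z
  by_cases hy : y ∈ tsupport χ
  · have h1 : HasGradientAt f (gradient f y) y :=
      ((hf.contDiffAt (hU.mem_nhds (hs hy))).differentiableAt one_ne_zero).hasGradientAt
    have h2 := B2.divT_smul (X := fun y => χ y • Y y) w h1 ((hχ.smul hY).differentiable one_ne_zero y)
    simp only [h2, h0 y (hs hy) hz1, inner_smul_left, inner_smul_right, conj_trivial]
    ring
  · simp only [tan_divT_zero hz hy, image_eq_zero_of_notMem_tsupport hy, zero_smul, inner_zero_left]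
    ring

theorem tan_loc {d : ℕ} {V : Measure (E × E)} (hV : SV0 d V) {U : Set E} (hU : IsOpen U) {f : E → ℝ}
    (hf : ContDiffOn ℝ 1 f U) (h0 : ∀ y ∈ U, y ∈ V.fst.support → f y = 0) {χ : E → ℝ}
    (hχ : ContDiff ℝ 1 χ) (hc : HasCompactSupport χ) (hs : tsupport χ ⊆ U) :
    ∀ᵐ z ∂V, χ z.1 ≠ 0 → gradient f z.1 = ⟪z.2, gradient f z.1⟫ • z.2 := by
  set Z : E → E := fun y => χ y • gradient f y with hZ
  have hz : ∀ y, χ y = 0 → Z y = 0 := fun y hy => by simp [hZ, hy]
  have hZc : Continuous Z := tan_continuous hU hs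
    (hχ.continuous.continuousOn.smul
      (contDiffOn_zero.1 (tan_contDiffOn_gradient (m := 0) hU hf (by norm_num)))) hz
  have hI : Integrable (fun z : E × E => ‖Z z.1‖ ^ 2 - ⟪Z z.1, z.2⟫ ^ 2) V :=
    tan_integrable hV hc (by fun_prop) fun z h => by simp [hz _ h]
  have hJ : Integrable (fun z : E × E => ‖Z z.1‖) V :=
    tan_integrable hV hc (by fun_prop) fun z h => by simp [hz _ h]
  have hpos : ∀ᵐ z ∂V, ‖Z z.1‖ ^ 2 - ⟪Z z.1, z.2⟫ ^ 2 = ‖Z z.1 - ⟪z.2, Z z.1⟫ • z.2‖ ^ 2 :=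
    hV.unit.mono fun z h => by
      generalize Z z.1 = a
      rw [norm_sub_sq_real, inner_smul_right, norm_smul, h, real_inner_comm, mul_one, Real.norm_eq_abs,
        sq_abs]
      ring
  have hle : ∀ ε : ℝ, 0 < ε →
      ∫ z, (‖Z z.1‖ ^ 2 - ⟪Z z.1, z.2⟫ ^ 2) ∂V ≤ 2 * ε * ∫ z, ‖Z z.1‖ ∂V := fun ε hε => by
    obtain ⟨Y, hY, hYZ, -⟩ := hZc.exists_contDiff_approx 1 (ε := fun _ => ε) continuous_const fun _ => hε
    have h1 := tan_step hV hU hf h0 hχ hc hs hY
    have hYc := hY.continuous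
    have hK : Integrable (fun z : E × E => ⟪Z z.1, Y z.1⟫ - ⟪Z z.1, z.2⟫ * ⟪z.2, Y z.1⟫) V :=
      tan_integrable hV hc (by fun_prop) fun z h => by simp [hz _ h]
    rw [← integral_const_mul, ← add_zero (∫ z, 2 * ε * ‖Z z.1‖ ∂V), ← h1,
      ← integral_add (hJ.const_mul _) hK]
    refine integral_mono_ae hI ((hJ.const_mul _).add hK) (hV.unit.mono fun z h => ?_)
    have h2 : ‖Y z.1 - Z z.1‖ ≤ ε := by rw [← dist_eq_norm]; exact (hYZ _).le
    have h3 : |⟪Z z.1, Y z.1 - Z z.1⟫| ≤ ‖Z z.1‖ * ε :=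
      (abs_real_inner_le_norm _ _).trans (by gcongr)
    have h4 : |⟪Z z.1, z.2⟫| ≤ ‖Z z.1‖ := by simpa [h] using abs_real_inner_le_norm (Z z.1) z.2
    have h5 : |⟪z.2, Y z.1 - Z z.1⟫| ≤ ε := by
      have := abs_real_inner_le_norm z.2 (Y z.1 - Z z.1)
      rw [h, one_mul] at this
      exact this.trans h2
    have h6 : |⟪Z z.1, z.2⟫ * ⟪z.2, Y z.1 - Z z.1⟫| ≤ ‖Z z.1‖ * ε := by
      rw [abs_mul]; gcongr
    rw [inner_sub_right, real_inner_self_eq_norm_sq] at h3
    rw [inner_sub_right, real_inner_comm (Z z.1) z.2] at h6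
    have h7 := (abs_le.1 h3).1
    have h8 := (abs_le.1 h6).2
    simp only
    nlinarith
  have hI0 : ∫ z, (‖Z z.1‖ ^ 2 - ⟪Z z.1, z.2⟫ ^ 2) ∂V ≤ 0 := by
    have h1 : Tendsto (fun ε : ℝ => 2 * ε * ∫ z, ‖Z z.1‖ ∂V) (𝓝[>] 0) (𝓝 0) := by
      have h2 : Continuous fun ε : ℝ => 2 * ε * ∫ z, ‖Z z.1‖ ∂V := by fun_prop
      have h3 := h2.tendsto 0
      simp only [mul_zero, zero_mul] at h3
      exact h3.mono_left nhdsWithin_le_nhds
    exact ge_of_tendsto h1 (eventually_mem_nhdsWithin.mono fun ε hε => hle ε hε)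
  have hnn : 0 ≤ᵐ[V] fun z : E × E => ‖Z z.1‖ ^ 2 - ⟪Z z.1, z.2⟫ ^ 2 :=
    hpos.mono fun z h => by simp only [h, Pi.zero_apply]; positivity
  have h1 := (integral_eq_zero_iff_of_nonneg_ae hnn hI).1 (le_antisymm hI0 (integral_nonneg_of_ae hnn))
  filter_upwards [h1, hpos] with z h2 h3 h4
  rw [h2, Pi.zero_apply, eq_comm, sq_eq_zero_iff, norm_eq_zero, sub_eq_zero] at h3
  simp only [hZ, inner_smul_right, mul_smul] at h3
  exact smul_right_injective E h4 h3

/-- Locally (`measure_null_of_locally_null`): let `n = ∇f`, `χ` a bump with `tsupport χ ⊆ U`.  For every `C¹` field `Y`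
with compact support in `U`, `X = f • Y` is `C¹` and `divT X (y, w) = ⟪n, Y⟫ - ⟪n, w⟫ ⟪w, Y⟫` for `y` in the support
(`B2.divT_smul`).  Approximate the continuous field `χ • n` uniformly by such `Y` (`Continuous.exists_contDiff_approx`,
`meas_compact_lt_top`): `∫ χ (‖n‖² - ⟪n, w⟫²) = 0`, and `‖n‖² - ⟪n, w⟫² = ‖n - ⟪w, n⟫ w‖²` as `‖w‖ = 1`. -/
theorem ae_normal {d : ℕ} {V : Measure (E × E)} (hV : SV0 d V) {U : Set E} (hU : IsOpen U) {f : E → ℝ}
    (hf : ContDiffOn ℝ 1 f U) (h0 : ∀ y ∈ U, y ∈ V.fst.support → f y = 0) :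
    ∀ᵐ z ∂V, z.1 ∈ U → gradient f z.1 = ⟪z.2, gradient f z.1⟫ • z.2 := by
  rw [ae_iff]
  refine measure_null_of_locally_null _ fun z hz => ?_
  have hz1 : z.1 ∈ U := by
    by_contra h
    exact hz fun h' => absurd h' h
  obtain ⟨χ, hs, hc, hχ, -, h1⟩ := exists_contDiff_tsupport_subset (n := 1) (hU.mem_nhds hz1)
  have h2 := ae_iff.1 (tan_loc hV hU hf h0 hχ hc hs)
  refine ⟨_, ?_, h2⟩
  have h3 : ∀ᶠ z' : E × E in 𝓝 z, χ z'.1 ≠ 0 :=
    (hχ.continuous.comp continuous_fst).continuousAt.eventually_ne (by simp [h1])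
  filter_upwards [self_mem_nhdsWithin, mem_nhdsWithin_of_mem_nhds h3] with z' h4 h5 h6
  exact h4 fun _ => h6 h5

/-- Test with `X = φ • ∇f`, `φ ≥ 0` a bump near `y`: by `ae_normal`, a.e.
`divT X (y, w) = φ y * h y`, `h = lap f - ⟪∇f, hess f ∇f⟫ / ‖∇f‖²`, which is continuous on `U`; if `h y ≠ 0` then
`∫ φ h ≠ 0` as `y` is in the support. -/
theorem minimal_of {d : ℕ} {V : Measure (E × E)} (hV : SV0 d V) {U : Set E} (hU : IsOpen U) {f : E → ℝ}
    (hf : ContDiffOn ℝ 2 f U) (h0 : ∀ y ∈ U, y ∈ V.fst.support → f y = 0)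
    (hne : ∀ y ∈ U, gradient f y ≠ 0) : ∀ y ∈ U, y ∈ V.fst.support →
      ‖gradient f y‖ ^ 2 * lap f y = ⟪gradient f y, hess f y (gradient f y)⟫ := by
  intro y hy hys
  have hn : ContDiffOn ℝ 1 (gradient f) U := tan_contDiffOn_gradient hU hf (by norm_num)
  have hH : ContinuousOn (hess f) U := hn.continuousOn_fderiv_of_isOpen hU le_rfl
  have htr : Continuous (trc : (E →L[ℝ] E) → ℝ) :=
    LinearMap.continuous_of_finiteDimensional
      ((LinearMap.trace ℝ E).comp (ContinuousLinearMap.coeLM ℝ))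
  set k : E → ℝ := fun y => lap f y - ⟪gradient f y, hess f y (gradient f y)⟫ / ‖gradient f y‖ ^ 2 with hk
  have hkc : ContinuousOn k U :=
    (htr.comp_continuousOn hH).sub ((hn.continuousOn.inner (hH.clm_apply hn.continuousOn)).div
      (hn.continuousOn.norm.pow 2) fun y hy => pow_ne_zero 2 (norm_ne_zero_iff.2 (hne y hy)))
  have : IsFiniteMeasureOnCompacts V.fst := ⟨fun K hK => meas_compact_lt_top (hV.integ 0 1 one_pos) hK⟩
  have hae : ∀ᵐ y ∂V.fst, y ∈ U → k y = 0 := by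
    refine hU.ae_eq_zero_of_integral_contDiff_smul_eq_zero (hkc.locallyIntegrableOn hU.measurableSet)
      fun φ hφ hc hs => ?_
    have hφ1 : ContDiff ℝ 1 φ := hφ.of_le (WithTop.coe_le_coe.2 le_top)
    have hz : ∀ y, φ y = 0 → φ y • gradient f y = 0 := fun y hy => by simp [hy]
    have hcont : Continuous fun y => φ y • k y :=
      tan_continuous hU hs (hφ.continuous.continuousOn.smul hkc) fun y hy => by simp [hy]
    rw [Measure.fst, integral_map measurable_fst.aemeasurable hcont.aestronglyMeasurable,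
      ← hV.stat (fun y => φ y • gradient f y) (tan_contDiff hU hs (hφ1.contDiffOn.smul hn) hz)
        (tan_compact hc hz)]
    refine integral_congr_ae ?_
    filter_upwards [hV.unit, ae_normal hV hU (hf.of_le (by norm_num)) h0] with z hw hz1
    obtain ⟨y, w⟩ := z
    by_cases hy : y ∈ tsupport φ
    · have hyU := hs hy
      have h1 := hz1 hyU
      simp only at h1 hw
      have h2 := B2.divT_smul (X := gradient f) w (hφ1.differentiable one_ne_zero y).hasGradientAt
        ((hn.contDiffAt (hU.mem_nhds hyU)).differentiableAt one_ne_zero)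
      have h3 : divT (gradient f) (y, w) = lap f y - ⟪w, hess f y w⟫ := rfl
      have h4 : ‖gradient f y‖ ^ 2 ≠ 0 := pow_ne_zero 2 (norm_ne_zero_iff.2 (hne y hyU))
      rw [h2, h3]
      simp only [hk, smul_eq_mul]
      generalize gradient f y = n at h1 h4
      generalize ⟪w, n⟫ = c at h1
      subst h1
      have h5 : ‖c • w‖ ^ 2 = c ^ 2 := by rw [norm_smul, hw, mul_one, Real.norm_eq_abs, sq_abs]
      rw [h5] at h4 ⊢
      simp only [map_smul, inner_smul_left, inner_smul_right, conj_trivial]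
      have h6 : c ≠ 0 := fun h => h4 (by simp [h])
      field_simp
      ring
    · simp only [tan_divT_zero hz hy, image_eq_zero_of_notMem_tsupport hy, zero_smul]
  have hk0 : k y = 0 := by
    by_contra h
    have h1 : ∀ᶠ y' in 𝓝 y, k y' ≠ 0 := (hkc.continuousAt (hU.mem_nhds hy)).eventually_ne h
    have h2 := (Measure.mem_support_iff_forall y).1 hys _ (inter_mem h1 (hU.mem_nhds hy))
    refine h2.ne' (measure_mono_null (fun y' hy' => ?_) (ae_iff.1 hae))
    exact fun h3 => hy'.1 (h3 hy'.2)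
  have h4 : ‖gradient f y‖ ^ 2 ≠ 0 := pow_ne_zero 2 (norm_ne_zero_iff.2 (hne y hy))
  simp only [hk] at hk0
  rw [sub_eq_zero, eq_div_iff h4] at hk0
  rw [← hk0, mul_comm]

end Crest.Agent.R246.F2
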