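import Crest.Agent.R246.F2.Area
import Crest.Agent.R246.F2.Tan
import Crest.Agent.R246.F2.Col

/-!
# Row 246, block F2: the varifold over a graph.  Statements FROZEN (owner helper43).
-/

set_option autoImplicit false
set_option linter.unusedSectionVars false

open MeasureTheory Metric Filter Topology Set Module
open scoped RealInnerProductSpace ENNReal ContDiff Real

noncomputable section

namespace Crest.Agent.R246.F2

variable {E : Type} [NormedAddCommGroup E] [InnerProductSpace ℝ E] [FiniteDimensional ℝ E]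
  [MeasurableSpace E] [BorelSpace E]

variable {p e : E} {ρ : ℝ} {v : (ℝ ∙ e)ᗮ → ℝ} {g : (ℝ ∙ e)ᗮ → (ℝ ∙ e)ᗮ}
  {d : ℕ} {V : Measure (E × E)} {s : E → ℝ} {Θ : ℝ}

theorem weak_ne (he : ‖e‖ = 1) (a : (ℝ ∙ e)ᗮ) : e - (a : E) ≠ 0 := fun h => by
  have h4 := norm_sq_sub he a
  rw [h, norm_zero] at h4
  nlinarith [sq_nonneg ‖a‖]

theorem weak_tang {S : Set E} (h : Gr S p e ρ v g) {q : E} (hq : q ∈ S ∩ cyl p e ρ) :
    Tang S q (‖e - (g (pr p e q) : E)‖⁻¹ • (e - (g (pr p e q) : E))) :=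
  tang_of_grad (h.hasGradientAt hq.2) (weak_ne h.unit _) ((h.mem_iff hq.2).1 hq.1)
    (mem_of_superset ((isOpen_cyl p e ρ).mem_nhds hq.2) fun _ hy => (h.mem_iff hy).1)

/-- `ext_of_th` on `spt ∩ cyl`; `tang_of_grad`, `dens_one`, `th_restrict`, `Gr.th_le`, `Gr.th_lim` -/
theorem Gr.meas_eq (hA : StArea E) (hE : finrank ℝ E = d + 1) (hV : Cls d V s Θ) (hΘ : Θ < 2)
    (hL : Lower d V.fst 1) (h : Gr V.fst.support p e ρ v g) (hρ : 2 * ρ ≤ ‖p‖) :
    V.fst.restrict (cyl p e ρ) = (ar d V.fst.support).restrict (cyl p e ρ) := by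
  have hm := (isOpen_cyl p e ρ).measurableSet
  have hS : MeasurableSet V.fst.support := Measure.isClosed_support.measurableSet
  have := h.finite_ar hA hE
  have : IsFiniteMeasure (V.fst.restrict (cyl p e ρ)) := isFiniteMeasure_restrict.2
    ((measure_mono ((cyl_subset_ball h.unit p ρ).trans ball_subset_closedBall)).trans_lt
      (meas_compact_lt_top (hV.integ 0 1 one_pos) (isCompact_closedBall p (2 * ρ)))).ne
  refine ext_of_th (d := d) (S := V.fst.support ∩ cyl p e ρ) (C := 2) ?_ ?_ (fun x _ r hr => ?_)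
    (fun x _ r hr => h.th_le hA hE x hr) (fun x hx => ?_) fun x hx => h.th_lim hA hE hx
  · filter_upwards [ae_restrict_of_ae (Measure.support_mem_ae (μ := V.fst)), ae_restrict_mem hm] with y h1 h2
    exact ⟨h1, h2⟩
  · filter_upwards [ae_restrict_of_ae (ae_restrict_mem (μ := μHE[d]) hS), ae_restrict_mem hm] with y h1 h2
    exact ⟨h1, h2⟩
  · exact (setIntegral_le_integral (hV.integ x r hr) (ae_of_all _ fun y => (gk_pos d x hr y).le)).trans
      ((hV.upper x r hr).trans hΘ.le)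
  · have hx0 : x ≠ 0 := by
      rintro rfl
      have h1 := cyl_subset_ball h.unit p ρ hx.2
      rw [mem_ball, dist_zero_left] at h1
      linarith
    have he : ‖‖e - (g (pr p e x) : E)‖⁻¹ • (e - (g (pr p e x) : E))‖ = 1 := by
      rw [norm_smul, norm_inv, norm_norm, inv_mul_cancel₀ (norm_ne_zero_iff.2 (weak_ne h.unit _))]
    exact th_restrict (hV.integ x) (hV.upper x) (dens_one hV hΘ hL hx.1 hx0 he (weak_tang h hx)).1
      (isOpen_cyl p e ρ) hx.2

theorem weak_alg (he : ‖e‖ = 1) (a b : (ℝ ∙ e)ᗮ) {w : E} (hw : ‖w‖ = 1)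
    (h : e - (a : E) = ⟪w, e - (a : E)⟫ • w) :
    ⟪(b : E), e⟫ - ⟪(b : E), w⟫ * ⟪w, e⟫ = ⟪a, b⟫ / (1 + ‖a‖ ^ 2) := by
  have h1 := norm_sq_sub he a
  have h2 : ⟪e - (a : E), e⟫ = 1 := by
    rw [inner_sub_left, real_inner_self_eq_norm_sq, he, real_inner_comm, inner_orth]; norm_num
  have h3 : ⟪e - (a : E), (b : E)⟫ = -⟪a, b⟫ := by
    rw [inner_sub_left, inner_orth, zero_sub, Submodule.coe_inner]
  have h4 : ⟪(b : E), e⟫ = 0 := by rw [real_inner_comm, inner_orth]
  generalize ⟪w, e - (a : E)⟫ = c at h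
  rw [h] at h1 h2 h3
  rw [norm_smul, hw, mul_one, Real.norm_eq_abs, sq_abs] at h1
  simp only [inner_smul_left, conj_trivial] at h2 h3
  have h5 : 0 < 1 + ‖a‖ ^ 2 := by positivity
  rw [h4, real_inner_comm w, eq_div_iff h5.ne', ← h1]
  linear_combination (-(c * ⟪w, (b : E)⟫)) * h2 - h3

/-- Test with `X y = (φ (pr y) * χ ⟪e, y - p⟫) • e`, `χ : ContDiffBump 0` with radii `ρ/2 < 3ρ/4`.  On `spt ∩ cyl`
the scalar factor has gradient `∇φ (pr y)`, and by `ae_normal` (`n = e - g`, `‖n‖² ⟪w,a⟫⟪w,b⟫ = ⟪n,a⟫⟪n,b⟫`)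
`divT X (y, w) = ⟪g, ∇φ⟫ / (1 + ‖g‖²)` at `pr y`; `Gr.integral_ar`. -/
theorem Gr.weak (hA : StArea E) (hE : finrank ℝ E = d + 1) (hV : SV0 d V)
    (h : Gr V.fst.support p e ρ v g)
    (hμ : V.fst.restrict (cyl p e ρ) = (ar d V.fst.support).restrict (cyl p e ρ))
    (φ : (ℝ ∙ e)ᗮ → ℝ) (hφ : ContDiff ℝ 1 φ) (hc : HasCompactSupport φ) (hs : tsupport φ ⊆ ball 0 ρ) :
    ∫ x, ⟪g x, gradient φ x⟫ / √(1 + ‖g x‖ ^ 2) = 0 := by
  have hρ := h.pos
  have he := h.unit
  have hO := isOpen_cyl p e ρ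
  let χ : ContDiffBump (0 : ℝ) := ⟨ρ / 2, 3 * ρ / 4, by positivity, by linarith⟩
  set ψ : E → ℝ := fun y => φ (pr p e y) * χ ⟪e, y - p⟫ with hψ
  have hψ1 : ContDiff ℝ 1 ψ := (hφ.comp (contDiff_pr p e)).mul
    (χ.contDiff.comp (contDiff_const.inner ℝ (contDiff_id.sub contDiff_const)))
  have hK : IsCompact ((fun z : (ℝ ∙ e)ᗮ × ℝ => p + (z.1 : E) + z.2 • e) ''
      (tsupport φ ×ˢ closedBall 0 (3 * ρ / 4))) :=
    (hc.isCompact.prod (isCompact_closedBall _ _)).image (by fun_prop)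
  have hsub : tsupport ψ ⊆ (fun z : (ℝ ∙ e)ᗮ × ℝ => p + (z.1 : E) + z.2 • e) ''
      (tsupport φ ×ˢ closedBall 0 (3 * ρ / 4)) := by
    refine closure_minimal (fun y hy => ?_) hK.isClosed
    have hy' := mul_ne_zero_iff.1 hy
    refine ⟨(pr p e y, ⟪e, y - p⟫), ⟨subset_tsupport _ hy'.1, ?_⟩, decomp he p y⟩
    have h1 : ⟪e, y - p⟫ ∈ Function.support χ := hy'.2
    rw [χ.support_eq] at h1
    exact ball_subset_closedBall h1
  have hψc : HasCompactSupport ψ := hK.of_isClosed_subset (isClosed_tsupport ψ) hsub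
  have hψs : tsupport ψ ⊆ cyl p e ρ := fun y hy => by
    obtain ⟨⟨x, t⟩, ⟨h1, h2⟩, rfl⟩ := hsub hy
    refine ⟨?_, ?_⟩
    · rw [pr_line]; simpa using hs h1
    · rw [inner_line he]
      simp only [mem_closedBall, dist_zero_right, Real.norm_eq_abs] at h2
      linarith
  have hz : ∀ y, ψ y = 0 → ψ y • e = 0 := fun y hy => by simp [hy]
  have hstat := hV.stat (fun y => ψ y • e) (hψ1.smul contDiff_const) (tan_compact hψc hz)
  set k : E → ℝ := fun y => ⟪g (pr p e y), gradient φ (pr p e y)⟫ / (1 + ‖g (pr p e y)‖ ^ 2) with hk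
  have hgφ : Continuous (gradient φ) := by
    rw [← continuousOn_univ]
    exact contDiffOn_zero.1 (tan_contDiffOn_gradient (m := 0) isOpen_univ hφ.contDiffOn (by norm_num))
  have hpr : Continuous (pr p e) := (contDiff_pr p e (n := 0)).continuous
  have hgc : ContinuousOn (fun y => g (pr p e y)) (cyl p e ρ) :=
    h.cont.comp hpr.continuousOn fun y hy => by simpa using hy.1
  have hkc : ContinuousOn k (cyl p e ρ) :=
    (hgc.inner (hgφ.comp hpr).continuousOn).div (continuousOn_const.add (hgc.norm.pow 2))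
      fun y _ => by positivity
  have hae : ∀ᵐ z ∂V, divT (fun y => ψ y • e) z = (cyl p e ρ).indicator k z.1 := by
    filter_upwards [hV.unit, tan_ae_support V, ae_normal hV hO (contDiffOn_fG h.contDiffOn_v)
      fun y hy hy' => (h.mem_iff hy).1 hy'] with z hw hz1 hz2
    obtain ⟨y, w⟩ := z
    by_cases hy : y ∈ cyl p e ρ
    · have h1 := hz2 hy
      simp only [(h.hasGradientAt hy).gradient] at h1
      have hx : pr p e y ∈ ball 0 ρ := by simpa using hy.1
      have h2 : |⟪e, y - p⟫| < ρ / 2 := by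
        have h3 := (h.mem_iff hy).1 hz1
        rw [fG, sub_eq_zero] at h3
        have h4 := h.abs_v hx
        have h5 := hy.1
        rw [h3]; linarith
      have h3 : ψ =ᶠ[𝓝 y] fun y => φ (pr p e y) := by
        have h4 : Continuous fun y => |⟪e, y - p⟫| := by fun_prop
        filter_upwards [h4.continuousAt.eventually (gt_mem_nhds h2)] with y' hy'
        have h5 : χ ⟪e, y' - p⟫ = 1 := χ.one_of_mem_closedBall (by simpa using hy'.le)
        simp only [hψ, h5, mul_one]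
      have h4 : HasGradientAt ψ ((gradient φ (pr p e y) : (ℝ ∙ e)ᗮ) : E) y :=
        (hasGradientAt_comp_pr (hφ.differentiable one_ne_zero _).hasGradientAt).congr_of_eventuallyEq h3
      rw [B2.divT_smul (X := fun _ => e) w h4 (differentiableAt_const e), B2.divT_const, mul_zero, zero_add,
        indicator_of_mem hy]
      exact weak_alg he _ _ hw h1
    · rw [tan_divT_zero hz (fun h => hy (hψs h)), indicator_of_notMem hy]
  have hmeas : AEStronglyMeasurable ((cyl p e ρ).indicator k) V.fst :=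
    (aestronglyMeasurable_indicator_iff hO.measurableSet).2 (hkc.aestronglyMeasurable hO.measurableSet)
  rw [integral_congr_ae hae, ← integral_map measurable_fst.aemeasurable hmeas, ← Measure.fst,
    integral_indicator hO.measurableSet, hμ, h.integral_ar hA hE hkc] at hstat
  rw [← hstat, ← setIntegral_eq_integral_of_forall_compl_eq_zero (s := ball 0 ρ)]
  · refine setIntegral_congr_fun measurableSet_ball fun x _ => ?_
    have h1 : 0 < 1 + ‖g x‖ ^ 2 := by positivity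
    have h2 := Real.sqrt_pos.2 h1
    simp only [hk, GG, pr_line]
    rw [div_mul_eq_mul_div, div_eq_div_iff h2.ne' h1.ne', mul_assoc, Real.mul_self_sqrt h1.le]
  · intro x hx
    have h1 : φ =ᶠ[𝓝 x] fun _ => 0 := notMem_tsupport_iff_eventuallyEq.1 fun h => hx (hs h)
    rw [h1.gradient_eq, gradient_fun_const, inner_zero_right, zero_div]

/-- `dens_one` at `p` with the normal `e`, `Gr.isPreconnected`, `col_eq` -/
theorem Gr.colour (hV : Cls d V s Θ) (hΘ : Θ < 2) (hL : Lower d V.fst 1)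
    (h : Gr V.fst.support p e ρ v g) (hp : p ≠ 0) :
    ∃ σ : ℝ, (σ = 1 ∨ σ = -1) ∧ ∀ y ∈ cyl p e ρ, y ∉ V.fst.support → 0 < s y * (σ * fG p e v y) := by
  have he := h.unit
  have hpr : pr p e p = 0 := by simp [pr]
  have ht := weak_tang h ⟨h.self_mem, mem_cyl_self p e h.pos⟩
  rw [hpr, h.g0, Submodule.coe_zero, sub_zero, he, inv_one, one_smul] at ht
  obtain ⟨r, h1, h2⟩ := ((dens_one hV hΘ hL h.self_mem hp he ht).2.and (Ioo_mem_nhdsGT h.pos)).exists
  have hline : ∀ t : ℝ, |t| < ρ → p + t • e ∈ cyl p e ρ ∧ fG p e v (p + t • e) = t := fun t ht => by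
    have h3 := pr_line p (0 : (ℝ ∙ e)ᗮ) t
    have h4 := inner_line he p (0 : (ℝ ∙ e)ᗮ) t
    rw [Submodule.coe_zero, add_zero] at h3 h4
    exact ⟨⟨by rw [h3, norm_zero]; exact h.pos, by rwa [h4]⟩, by rw [fG, h3, h4, h.v0, sub_zero]⟩
  have hd : ∀ σ : ℝ, ∀ y ∈ {y ∈ cyl p e ρ | 0 < σ * fG p e v y}, y ∉ V.fst.support := fun σ y hy hy' => by
    have h3 := hy.2
    rw [(h.mem_iff hy.1).1 hy', mul_zero] at h3
    exact lt_irrefl _ h3
  have h3 := hline r (by rw [abs_of_pos h2.1]; exact h2.2)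
  have h4 := hline (-r) (by rw [abs_neg, abs_of_pos h2.1]; exact h2.2)
  rw [neg_smul, ← sub_eq_add_neg] at h4
  refine ⟨s (p + r • e), hV.col.sign _, fun y hy hy' => ?_⟩
  have h5 : fG p e v y ≠ 0 := fun h5 => hy' ((h.mem_iff hy).2 h5)
  rcases h5.lt_or_gt with h6 | h6
  · have h7 : s y = s (p - r • e) := col_eq hV.col (h.isPreconnected (σ := -1) (Or.inr rfl)) (hd _)
      ⟨hy, by linarith⟩ ⟨h4.1, by rw [h4.2]; linarith [h2.1]⟩
    rw [h7]
    rcases hV.col.sign (p + r • e) with h8 | h8 <;> rcases hV.col.sign (p - r • e) with h9 | h9 <;>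
      rw [h8, h9] at h1 ⊢ <;> first | exact absurd rfl h1 | linarith
  · have h7 : s y = s (p + r • e) := col_eq hV.col (h.isPreconnected (σ := 1) (Or.inl rfl)) (hd _)
      ⟨hy, by linarith⟩ ⟨h3.1, by rw [h3.2]; linarith [h2.1]⟩
    rw [h7]
    rcases hV.col.sign (p + r • e) with h8 | h8 <;> rw [h8] <;> linarith

end Crest.Agent.R246.F2
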